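import Vale.Agent.P208.Strip3

namespace Vale.Agent.P208

open Finset

variable {E : Type*} [NormedAddCommGroup E] [InnerProductSpace ℝ E]

theorem mul_add_div' (q K b : ℕ) (hb : b < K) : (q * K + b) / K = q := by
  rw [Nat.add_comm, Nat.add_mul_div_right _ _ (by omega), Nat.div_eq_of_lt hb]
  simp

theorem mul_add_mod' (q K b : ℕ) (hb : b < K) : (q * K + b) % K = b := by
  rw [Nat.add_comm, Nat.add_mul_mod_self_right, Nat.mod_eq_of_lt hb]

theorem grid_mem (a h : ℝ) (hh : 0 < h) (q K b : ℕ) (hb : b < K) :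
    a + (q * K + b : ℕ) * h ∈ Set.Icc (a + q * (K * h)) (a + (q + 1) * (K * h)) := by
  have h1 : (b : ℝ) ≤ K := by exact_mod_cast hb.le
  have h2 : (0 : ℝ) ≤ b := Nat.cast_nonneg b
  push_cast
  constructor <;> nlinarith

theorem lt_mul_of (P M i A : ℕ) (hP : P < A) (hi : i < M) : P * M + i < A * M := by
  have : (P + 1) * M ≤ A * M := Nat.mul_le_mul_right _ hP
  nlinarith

theorem near_ref (a k : ℝ) (hk : 0 < k) (Q M i : ℕ) (hi : i < M) (t : ℝ)
    (ht : t ∈ Set.Icc (a + (Q * M + i : ℕ) * k) (a + ((Q * M + i : ℕ) + 1) * k)) :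
    |t - (a + (Q * M : ℕ) * k)| ≤ M * k := by
  have h1 : (i : ℝ) + 1 ≤ M := by exact_mod_cast hi
  have h2 : (0 : ℝ) ≤ i := Nat.cast_nonneg i
  have h3 := ht.1
  have h4 := ht.2
  push_cast at h3 h4 ⊢
  rw [abs_le]; constructor <;> nlinarith

theorem ref_mem (a h : ℝ) (hh : 0 < h) (Q A K : ℕ) (hQ : Q ≤ A) :
    a + (Q : ℝ) * (K * h) ∈ Set.Icc a (a + (A * K : ℕ) * h) := by
  have h1 : (Q : ℝ) ≤ A := by exact_mod_cast hQ
  have h2 : (0 : ℝ) ≤ Q := Nat.cast_nonneg Q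
  have h3 : (0 : ℝ) ≤ K * h := by positivity
  push_cast
  constructor <;> nlinarith

theorem cross (B : ℝ → ℝ → E) (Φ : ℕ → ℝ → ℝ → E) (x0 y0 h L ρ γH γV Bd : ℝ) (U M T N : ℕ)
    (hU : 0 < U) (hM : 0 < M) (hT : 0 < T)
    (SR : Strip B (fun q => Φ (q % M)) x0 y0 h L ρ (U * M) (T * N))
    (SC : Strip (fun y x => B x y) (fun p y x => Φ (p % M) x y) y0 x0 h L ρ (U * T * M) N)
    (hγH : 0 < γH) (hγV : 0 < γV) (hγ : γV * (T : ℝ) ^ 2 ≤ γH) (hBd : 0 ≤ Bd)
    (hB2 : 2 * γH * (M : ℝ) ^ 3 * (N * h) ^ 2 ≤ Bd ^ 2)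
    (hH : ∑ β ∈ range (U * M * (T * N)), ∑ α ∈ range (U * M * (T * N)),
      dv (Φ (β / (T * N) % M)) B x0 ((U * M * (T * N) : ℕ) * h) h (x0 + α * h) (y0 + β * h) ≤
        ((U * M * (T * N) : ℕ) : ℝ) ^ 2 * h ^ 3 * γH)
    (hV : ∑ α ∈ range (U * T * M * N), ∑ β ∈ range (U * T * M * N),
      dv (fun y x => Φ (α / N % M) x y) (fun y x => B x y) y0 ((U * T * M * N : ℕ) * h) h
        (y0 + β * h) (x0 + α * h) ≤ ((U * T * M * N : ℕ) : ℝ) ^ 2 * h ^ 3 * γV) :
    ∃ (g : ℕ → E) (X Y : ℕ → ℝ) (P Q : ℕ), P < U * T ∧ Q < U ∧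
      (∀ i < M, X i ∈ Set.Icc (x0 + (P * M + i : ℕ) * (N * h))
        (x0 + ((P * M + i : ℕ) + 1) * (N * h))) ∧
      (∀ i < M, Y i ∈ Set.Icc (y0 + (Q * M + i : ℕ) * ((T * N : ℕ) * h))
        (y0 + ((Q * M + i : ℕ) + 1) * ((T * N : ℕ) * h))) ∧
      ∀ i < M, ∀ i' < M, ‖g i - g i' - (Φ i (X i') (Y i) - Φ i' (X i') (Y i))‖ ≤
        2 * (2 * Bd + 2 * L * h +
          2 * L * (M : ℝ) ^ 2 * T * (N * h) ^ 2 / ((U * M * (T * N) : ℕ) * h)) := by
  have hh := SR.hh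
  have hN := SC.hK
  have hn : U * T * M * N = U * M * (T * N) := by ring
  set u : ℝ := (U * M * (T * N) : ℕ) * h with hu
  have hu' : ((U * T * M * N : ℕ) : ℝ) * h = u := by rw [hn]
  set VH : ℕ → ℕ → ℝ := fun α β =>
    dv (Φ (β / (T * N) % M)) B x0 u h (x0 + α * h) (y0 + β * h) with hVH
  set VV : ℕ → ℕ → ℝ := fun α β => dv (fun y x => Φ (α / N % M) x y) (fun y x => B x y) y0
    ((U * T * M * N : ℕ) * h) h (y0 + β * h) (x0 + α * h) with hVV
  have VH0 : ∀ α β, 0 ≤ VH α β := fun _ _ => dv_nonneg _ _ _ _ _ _ _ hh.le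
  have VV0 : ∀ α β, 0 ≤ VV α β := fun _ _ => dv_nonneg _ _ _ _ _ _ _ hh.le
  set X0 : ℝ := 2 * (M * N) * (M * (T * N)) * h ^ 3 with hX0
  obtain ⟨Q, hQ, P, hP, hblk⟩ := block_select (fun α β => VH α β / γH + VV α β / γV) U
    (M * (T * N)) (U * T) (M * N) hU (Nat.mul_pos hU hT) X0 (by
      have e1 : U * (M * (T * N)) = U * M * (T * N) := by ring
      have e2 : U * T * (M * N) = U * M * (T * N) := by ring
      rw [e1, e2]
      rw [sum_comm, hn] at hV
      simp only [sum_add_distrib, ← sum_div]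
      have a1 := (div_le_iff₀ hγH).2 hH
      have a2 : (∑ β ∈ range (U * M * (T * N)), ∑ α ∈ range (U * M * (T * N)), VV α β) / γV ≤
          ((U * M * (T * N) : ℕ) : ℝ) ^ 2 * h ^ 3 := by
        rw [div_le_iff₀ hγV]
        simpa only [hVV, hn] using hV
      refine (add_le_add a1 a2).trans (le_of_eq ?_)
      rw [hX0]; push_cast; ring)
  simp only [sum_add_distrib, ← sum_div] at hblk
  have bH : ∑ β ∈ range (M * (T * N)), ∑ α ∈ range (M * N),
      VH (P * (M * N) + α) (Q * (M * (T * N)) + β) ≤ X0 * γH := by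
    rw [← div_le_iff₀ hγH]
    have : 0 ≤ (∑ β ∈ range (M * (T * N)), ∑ α ∈ range (M * N),
      VV (P * (M * N) + α) (Q * (M * (T * N)) + β)) / γV :=
      div_nonneg (sum_nonneg fun _ _ => sum_nonneg fun _ _ => VV0 _ _) hγV.le
    linarith
  have bV : ∑ α ∈ range (M * N), ∑ β ∈ range (M * (T * N)),
      VV (P * (M * N) + α) (Q * (M * (T * N)) + β) ≤ X0 * γV := by
    rw [← div_le_iff₀ hγV, sum_comm]
    have : 0 ≤ (∑ β ∈ range (M * (T * N)), ∑ α ∈ range (M * N),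
      VH (P * (M * N) + α) (Q * (M * (T * N)) + β)) / γH :=
      div_nonneg (sum_nonneg fun _ _ => sum_nonneg fun _ _ => VH0 _ _) hγH.le
    linarith
  have hrow : ∀ i, i < M → _ := fun i hi => SR.select (Q * M + i) (P * (M * N)) (M * N)
    (lt_mul_of Q M i U hQ hi) (by
      have : (P + 1) * (M * N) ≤ U * T * (M * N) := Nat.mul_le_mul_right _ hP
      nlinarith) (2 * γH * (M : ℝ) ^ 2 * N * h ^ 2) Bd (M * ((T * N : ℕ) * h))
    (y0 + (Q * M : ℕ) * ((T * N : ℕ) * h)) hBd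
    (by refine le_of_eq_of_le ?_ hB2; push_cast; ring)
    (ref_mem y0 h hh _ _ _ (Nat.mul_le_mul_right _ hQ.le))
    (near_ref y0 _ (mul_pos (by exact_mod_cast SR.hK) hh) Q M i hi) (by
      have := part_le (fun β => ∑ α ∈ range (M * N),
        VH (P * (M * N) + α) (Q * (M * (T * N)) + β))
        (fun _ => sum_nonneg fun _ _ => VH0 _ _) M (T * N) i hi
      refine le_of_eq_of_le (sum_congr rfl fun b _ => ?_) ((this.trans bH).trans (le_of_eq ?_))
      · have e : (Q * M + i) * (T * N) + b = Q * (M * (T * N)) + (i * (T * N) + b) := by ring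
        rw [e]
      · rw [hX0]; push_cast; ring)
  have hcol : ∀ i, i < M → _ := fun i hi => SC.select (P * M + i) (Q * (M * (T * N)))
    (M * (T * N)) (lt_mul_of P M i _ hP hi) (by
      have : (Q + 1) * (M * (T * N)) ≤ U * (M * (T * N)) := Nat.mul_le_mul_right _ hQ
      nlinarith) (2 * γV * (M : ℝ) ^ 2 * T * N * h ^ 2) Bd (M * (N * h))
    (x0 + (P * M : ℕ) * (N * h)) hBd
    (by
      refine le_trans ?_ hB2
      have : 0 ≤ 2 * (M : ℝ) ^ 3 * (N * h) ^ 2 := by positivity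
      have := mul_le_mul_of_nonneg_left hγ this
      push_cast
      nlinarith)
    (ref_mem x0 h hh _ _ _ (Nat.mul_le_mul_right _ hP.le))
    (near_ref x0 _ (mul_pos (by exact_mod_cast hN) hh) P M i hi) (by
      have := part_le (fun α => ∑ β ∈ range (M * (T * N)),
        VV (P * (M * N) + α) (Q * (M * (T * N)) + β))
        (fun _ => sum_nonneg fun _ _ => VV0 _ _) M N i hi
      refine le_of_eq_of_le (sum_congr rfl fun b _ => ?_) ((this.trans bV).trans (le_of_eq ?_))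
      · have e : (P * M + i) * N + b = P * (M * N) + (i * N + b) := by ring
        rw [e]
      · rw [hX0]; push_cast; ring)
  choose! b hb hrow using hrow
  choose! a ha hcol using hcol
  set σH := sl B x0 u (y0 + (Q * M : ℕ) * ((T * N : ℕ) * h)) with hσH
  set σV := sl (fun y x => B x y) y0 ((U * T * M * N : ℕ) * h) (x0 + (P * M : ℕ) * (N * h))
    with hσV
  set X : ℕ → ℝ := fun i => x0 + ((P * M + i) * N + a i : ℕ) * h with hX
  set Y : ℕ → ℝ := fun i => y0 + ((Q * M + i) * (T * N) + b i : ℕ) * h with hY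
  refine ⟨fun i => Φ i (X i) (Y i) - X i • σH - Y i • σV, X, Y, P, Q, hP, hQ,
    fun i hi => grid_mem x0 h hh _ _ _ (ha i hi), fun i hi => grid_mem y0 h hh _ _ _ (hb i hi),
    fun i hi i' hi' => ?_⟩
  have r1 := hrow i hi (i * N + a i) (lt_mul_of i N _ M hi (ha i hi)).le (i' * N + a i')
    (lt_mul_of i' N _ M hi' (ha i' hi')).le
  have r2 := hcol i' hi' (i' * (T * N) + b i') (lt_mul_of i' _ _ M hi' (hb i' hi')).le
    (i * (T * N) + b i) (lt_mul_of i _ _ M hi (hb i hi)).le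
  have eX : ∀ k, P * (M * N) + (k * N + a k) = (P * M + k) * N + a k := fun k => by ring
  have eY : ∀ k, Q * (M * (T * N)) + (k * (T * N) + b k) = (Q * M + k) * (T * N) + b k :=
    fun k => by ring
  have cX : (((i' * N + a i' : ℕ) : ℝ) - (i * N + a i : ℕ)) * h = X i' - X i := by
    simp only [hX]; push_cast; ring
  have cY : (((i * (T * N) + b i : ℕ) : ℝ) - (i' * (T * N) + b i' : ℕ)) * h = Y i - Y i' := by
    simp only [hY]; push_cast; ring
  rw [eX, eX, cX, mul_add_mod' Q M i hi] at r1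
  rw [eY, eY, cY, mul_add_mod' P M i' hi', hu'] at r2
  have f1 : ((M * N : ℕ) : ℝ) * h * (2 * L * (M * ((T * N : ℕ) * h)) / u) =
      2 * L * (M : ℝ) ^ 2 * T * (N * h) ^ 2 / u := by push_cast; ring
  have f2 : ((M * (T * N) : ℕ) : ℝ) * h * (2 * L * (M * (N * h)) / u) =
      2 * L * (M : ℝ) ^ 2 * T * (N * h) ^ 2 / u := by push_cast; ring
  rw [f1] at r1
  rw [f2] at r2
  calc _ = ‖(Φ i' (X i') (Y i) - Φ i' (X i') (Y i') - (Y i - Y i') • σV) -
        (Φ i (X i') (Y i) - Φ i (X i) (Y i) - (X i' - X i) • σH)‖ := by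
        congr 1; simp only [sub_smul]; abel
    _ ≤ _ := (norm_sub_le _ _).trans (by linarith [r1, r2])

end Vale.Agent.P208
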