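import Vale.Agent.P208.Geo

namespace Vale.Agent.P208

theorem cover_Dbl {ι : Type} (B : Set H2) (I : Finset ι) (Cl : H2 → ι → Prop) (δ : ℝ)
    (h1 : ∀ p ∈ B, ∃ i ∈ I, Cl p i)
    (h2 : ∀ p p' i, Cl p i → Cl p' i → ‖p - p'‖ < δ) :
    ∃ t : Finset H2, (↑t : Set H2) ⊆ B ∧ t.card ≤ I.card ∧ B ⊆ ⋃ y ∈ t, Metric.ball y δ := by
  classical
  have key : ∀ i : ι, ∃ q : H2, (∃ p ∈ B, Cl p i) → q ∈ B ∧ Cl q i := by
    intro i
    by_cases h : ∃ p ∈ B, Cl p i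
    · obtain ⟨p, hp⟩ := h
      exact ⟨p, fun _ => hp⟩
    · exact ⟨0, fun h' => absurd h' h⟩
  choose g hg using key
  refine ⟨(I.filter fun i => ∃ p ∈ B, Cl p i).image g, ?_,
    Finset.card_image_le.trans (Finset.card_filter_le _ _), ?_⟩
  · intro q hq
    obtain ⟨i, hi, rfl⟩ := Finset.mem_image.1 hq
    exact (hg i (Finset.mem_filter.1 hi).2).1
  · intro p hp
    obtain ⟨i, hi, hc⟩ := h1 p hp
    simp only [Set.mem_iUnion]
    refine ⟨g i, Finset.mem_image.2 ⟨i, Finset.mem_filter.2 ⟨hi, p, hp, hc⟩, rfl⟩, ?_⟩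
    rw [Metric.mem_ball, dist_eq_norm]
    exact h2 _ _ i hc (hg i ⟨p, hp, hc⟩).2

theorem range_Dbl {R x x0 ρ : ℝ} {p : ℤ} (hR : 0 < R) (h : |x - x0| ≤ ρ) (hρ : ρ < 32 * R)
    (h1 : (p : ℝ) * R ≤ x) (h2 : x ≤ ((p : ℝ) + 1) * R) :
    p ∈ Finset.Icc (⌊x0 / R⌋ - 33) (⌊x0 / R⌋ + 33) := by
  rw [abs_le] at h
  have f1 := Int.floor_le (x0 / R)
  have f2 := Int.lt_floor_add_one (x0 / R)
  rw [le_div_iff₀ hR] at f1
  rw [div_lt_iff₀ hR] at f2
  have a1 : (p : ℝ) * R ≤ ((⌊x0 / R⌋ + 33 : ℤ) : ℝ) * R := by push_cast; linarith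
  have a2 : ((⌊x0 / R⌋ - 33 : ℤ) : ℝ) * R ≤ (p : ℝ) * R := by push_cast; linarith
  rw [Finset.mem_Icc]
  exact ⟨by exact_mod_cast le_of_mul_le_mul_right a2 hR,
    by exact_mod_cast le_of_mul_le_mul_right a1 hR⟩

theorem floor_Dbl {x x0 ρ : ℝ} (hρ : 0 < ρ) (h : |x - x0| ≤ ρ) :
    ⌊(x - x0) / (ρ / 16)⌋ ∈ Finset.Icc (-16 : ℤ) 16 := by
  rw [abs_le] at h
  have h16 : 0 < ρ / 16 := by positivity
  rw [Finset.mem_Icc, Int.le_floor, Int.floor_le_iff, le_div_iff₀ h16, div_lt_iff₀ h16]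
  push_cast
  constructor <;> linarith

theorem close_Dbl {x x' x0 ρ : ℝ} (hρ : 0 < ρ)
    (h : ⌊(x - x0) / (ρ / 16)⌋ = ⌊(x' - x0) / (ρ / 16)⌋) : |x - x'| ≤ ρ / 16 := by
  have h16 : 0 < ρ / 16 := by positivity
  have := (Int.abs_sub_lt_one_of_floor_eq_floor h).le
  rw [← sub_div, abs_div, abs_of_pos h16, div_le_one h16] at this
  simpa using this

theorem exists_r_Dbl {ρ : ℝ} (hρ : 0 < ρ) : ∃ j, r j ≤ ρ := by
  obtain ⟨k, hk⟩ := exists_pow_lt_of_lt_one (div_pos hρ (r_pos 0)) (by norm_num : (1 / 8 : ℝ) < 1)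
  refine ⟨k, ?_⟩
  have := r_add_le_Geo 0 k
  rw [lt_div_iff₀ (r_pos 0)] at hk
  rw [add_zero] at this
  linarith

theorem doubling : ∃ lam : ℕ, ∀ s ∈ SS, ∀ ρ : ℝ, 0 < ρ → ∃ t : Finset H2,
    (↑t : Set H2) ⊆ SS ∧ t.card ≤ lam ∧
      SS ∩ Metric.closedBall s ρ ⊆ ⋃ y ∈ t, Metric.ball y (ρ / 2) := by
  classical
  refine ⟨33 * (33 * 135), ?_⟩
  rintro s ⟨c0, x0, y0, -, rfl⟩ ρ hρ
  have hex := exists_r_Dbl hρ
  set J := Nat.find hex with hJ
  have hJ1 : r J ≤ ρ := Nat.find_spec hex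
  have hJ2 : ∀ j < J, ρ < r j := fun j hj => not_le.1 (Nat.find_min hex hj)
  set f : ℤ → ℤ := fun p => p % (MM J : ℤ) + 1 with hf
  set K : Finset ℤ := insert 0
    ((Finset.Icc (⌊x0 / r J⌋ - 33) (⌊x0 / r J⌋ + 33)).image f ∪
      (Finset.Icc (⌊y0 / (TT J * r J)⌋ - 33) (⌊y0 / (TT J * r J)⌋ + 33)).image f) with hK
  have hKc : K.card ≤ 135 := by
    have a1 := Finset.card_image_le (s := Finset.Icc (⌊x0 / r J⌋ - 33) (⌊x0 / r J⌋ + 33)) (f := f)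
    have a2 := Finset.card_image_le
      (s := Finset.Icc (⌊y0 / (TT J * r J)⌋ - 33) (⌊y0 / (TT J * r J)⌋ + 33)) (f := f)
    rw [Int.card_Icc] at a1 a2
    refine (Finset.card_insert_le _ _).trans (Nat.succ_le_of_lt
      (lt_of_le_of_lt (Finset.card_union_le _ _) ?_))
    omega
  refine (cover_Dbl (SS ∩ Metric.closedBall (pt c0 x0 y0) ρ)
    (Finset.Icc (-16 : ℤ) 16 ×ˢ Finset.Icc (-16 : ℤ) 16 ×ˢ K)
    (fun p i => ∃ c x y, p = pt c x y ∧ ⌊(x - x0) / (ρ / 16)⌋ = i.1 ∧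
      ⌊(y - y0) / (ρ / 16)⌋ = i.2.1 ∧ (∀ j < J, c j = c0 j) ∧
      (ρ / 32 < r J → (c J : ℤ) = i.2.2)) (ρ / 2) ?_ ?_).imp fun t ⟨t1, t2, t3⟩ => ?_
  rotate_left 2
  · refine ⟨t1.trans Set.inter_subset_left, t2.trans ?_, t3⟩
    rw [Finset.card_product, Finset.card_product, Int.card_Icc]
    exact Nat.mul_le_mul (by norm_num) (Nat.mul_le_mul (by norm_num) hKc)
  · rintro p ⟨⟨c, x, y, hA, rfl⟩, hp⟩
    rw [Metric.mem_closedBall, dist_eq_norm] at hp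
    have hx := (pt_low_x c c0 x y x0 y0).trans hp
    have hy := (pt_low_y c c0 x y x0 y0).trans hp
    have hc : ∀ j < J, c j = c0 j := fun j hj => by
      by_contra hne
      have := (pt_low_c c c0 x y x0 y0 j hne).trans hp
      linarith [hJ2 j hj]
    have hk : ∃ k ∈ K, ρ / 32 < r J → (c J : ℤ) = k := by
      by_cases hr : ρ / 32 < r J
      · refine ⟨c J, ?_, fun _ => rfl⟩
        by_cases h0 : c J = 0
        · rw [h0, hK]; exact Finset.mem_insert_self _ _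
        · refine Finset.mem_insert_of_mem (Finset.mem_union.2 ?_)
          rcases hA J h0 with ⟨p, e1, e2, e3⟩ | ⟨p, e1, e2, e3⟩
          · exact Or.inl (Finset.mem_image.2
              ⟨p, range_Dbl (r_pos J) hx (by linarith) e2 e3, e1⟩)
          · have hT := one_le_TT J
            have hr0 := r_pos J
            exact Or.inr (Finset.mem_image.2
              ⟨p, range_Dbl (by positivity) hy (by nlinarith) e2 e3, e1⟩)
      · refine ⟨0, ?_, fun h => absurd h hr⟩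
        rw [hK]; exact Finset.mem_insert_self _ _
    obtain ⟨k, hk1, hk2⟩ := hk
    refine ⟨(⌊(x - x0) / (ρ / 16)⌋, ⌊(y - y0) / (ρ / 16)⌋, k), ?_,
      c, x, y, rfl, rfl, rfl, hc, hk2⟩
    rw [Finset.mem_product, Finset.mem_product]
    exact ⟨floor_Dbl hρ hx, floor_Dbl hρ hy, hk1⟩
  · rintro p p' i ⟨c, x, y, rfl, a1, a2, a3, a4⟩ ⟨c', x', y', rfl, b1, b2, b3, b4⟩
    have hx := close_Dbl hρ (a1.trans b1.symm)
    have hy := close_Dbl hρ (a2.trans b2.symm)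
    by_cases hr : ρ / 32 < r J
    · have hcJ : c J = c' J := by exact_mod_cast (a4 hr).trans (b4 hr).symm
      have := pt_up c c' x y x' y' (J + 1) (fun j hj => by
        rcases Nat.lt_succ_iff_lt_or_eq.1 hj with h | h
        · rw [a3 j h, b3 j h]
        · rw [h, hcJ])
      have h8 := r_succ_le J
      linarith
    · have := pt_up c c' x y x' y' J (fun j hj => by rw [a3 j hj, b3 j hj])
      linarith

end Vale.Agent.P208
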