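import Mathlib

namespace Vale.Agent.P208

/-- number of colours at level `j` -/
def MM (j : ℕ) : ℕ := (Nat.unpair (Nat.unpair j).1).1 + 1
/-- aspect ratio of the rows at level `j` -/
def TT (j : ℕ) : ℕ := (Nat.unpair (Nat.unpair j).1).2 + 1

/-- side of the level `j` squares -/
noncomputable def w : ℕ → ℝ
  | 0 => 1
  | j + 1 => w j / ((MM j : ℝ) * (TT j : ℝ) * ((j : ℝ) + 8))

/-- height of the level `j` sheets -/
noncomputable def r (j : ℕ) : ℝ := ((j : ℝ) + 8) * w (j + 1)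

/-- the colour sequence `c` is available over the point `(x, y)` -/
def Adm (c : ℕ → ℕ) (x y : ℝ) : Prop :=
  ∀ j, c j ≠ 0 →
    (∃ p : ℤ, p % (MM j : ℤ) + 1 = (c j : ℤ) ∧ (p : ℝ) * r j ≤ x ∧ x ≤ ((p : ℝ) + 1) * r j) ∨
    (∃ q : ℤ, q % (MM j : ℤ) + 1 = (c j : ℤ) ∧ (q : ℝ) * ((TT j : ℝ) * r j) ≤ y ∧
      y ≤ ((q : ℝ) + 1) * ((TT j : ℝ) * r j))

abbrev H2 := lp (fun _ : ℕ => ℝ) 2

noncomputable def e (n : ℕ) : H2 := lp.single 2 n (1 : ℝ)

noncomputable def v (j i : ℕ) : H2 := if i = 0 then 0 else r j • e (Nat.pair j i + 2)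

noncomputable def pt (c : ℕ → ℕ) (x y : ℝ) : H2 := x • e 0 + y • e 1 + ∑' j, v j (c j)

def SS : Set H2 := {p | ∃ c x y, Adm c x y ∧ p = pt c x y}

theorem MM_pos (j : ℕ) : 0 < MM j := Nat.succ_pos _
theorem TT_pos (j : ℕ) : 0 < TT j := Nat.succ_pos _
theorem one_le_MM (j : ℕ) : (1 : ℝ) ≤ MM j := by exact_mod_cast MM_pos j
theorem one_le_TT (j : ℕ) : (1 : ℝ) ≤ TT j := by exact_mod_cast TT_pos j

theorem w_pos : ∀ j, 0 < w j
  | 0 => one_pos
  | j + 1 => by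
    have h := w_pos j
    have h1 := one_le_MM j
    have h2 := one_le_TT j
    unfold w
    positivity

theorem r_pos (j : ℕ) : 0 < r j := by
  have := w_pos (j + 1)
  unfold r; positivity

theorem w_eq (j : ℕ) : w j = (MM j : ℝ) * (TT j : ℝ) * r j := by
  have h1 := one_le_MM j
  have h2 := one_le_TT j
  have h3 : (0 : ℝ) < (j : ℝ) + 8 := by positivity
  simp only [r, w]
  field_simp

theorem r_le_w (j : ℕ) : r j ≤ w j := by
  have h1 := one_le_MM j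
  have h2 := one_le_TT j
  have h3 := r_pos j
  rw [w_eq j]
  have : (1 : ℝ) ≤ (MM j : ℝ) * TT j := by nlinarith
  nlinarith

theorem r_succ_le (j : ℕ) : r (j + 1) ≤ r j / 8 := by
  have h1 := r_le_w (j + 1)
  have h2 := w_pos (j + 1)
  have h3 : (0 : ℝ) ≤ j := Nat.cast_nonneg j
  have : r j = ((j : ℝ) + 8) * w (j + 1) := rfl
  nlinarith

theorem exists_level (M T k : ℕ) (hM : 0 < M) (hT : 0 < T) :
    ∃ j, k ≤ j ∧ MM j = M ∧ TT j = T := by
  refine ⟨Nat.pair (Nat.pair (M - 1) (T - 1)) k, Nat.right_le_pair _ _, ?_, ?_⟩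
  · simp [MM, Nat.unpair_pair]; omega
  · simp [TT, Nat.unpair_pair]; omega

end Vale.Agent.P208
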