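import Mathlib

namespace Vale.Agent.P208

open Finset

theorem extremal {N : Type*} [Nonempty N] (a b : N → ℝ) (Λ : ℝ) (ha0 : ∀ n, 0 ≤ a n)
    (ha : ∀ n, a n ≤ Λ) (hb : ∀ n, b n ≤ Λ) (γ : ℝ) (hγ : 0 < γ) :
    ∃ A β t : ℝ, 0 ≤ A ∧ (∀ n, b n ≤ β) ∧ (∀ n, a n + A * (b n - β) ≤ t + γ) ∧
      ∀ δ : ℝ, 0 < δ → ∃ n, t - γ ≤ a n + A * (b n - β) ∧ β - b n ≤ δ := by
  obtain ⟨n₀⟩ := ‹Nonempty N›
  have hΛ : 0 ≤ Λ := (ha0 n₀).trans (ha n₀)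
  have bb : BddAbove (Set.range b) := ⟨Λ, by rintro _ ⟨n, rfl⟩; exact hb n⟩
  have hβ : ∀ n, b n ≤ ⨆ n, b n := le_ciSup bb
  have hβ' : ∀ x < ⨆ n, b n, ∃ n, x < b n := fun x hx => exists_lt_of_lt_ciSup hx
  generalize ⨆ n, b n = β at hβ hβ'
  let T : {A : ℝ // 0 ≤ A} → ℝ := fun A => ⨆ n, (a n + A.1 * (b n - β))
  have bT : ∀ A : {A : ℝ // 0 ≤ A}, BddAbove (Set.range fun n => a n + A.1 * (b n - β)) :=
    fun A => ⟨Λ, by
      rintro _ ⟨n, rfl⟩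
      have := mul_nonneg A.2 (sub_nonneg.2 (hβ n))
      have := ha n
      simp only
      linarith⟩
  have T0 : ∀ A, 0 ≤ T A := fun A => le_of_forall_pos_le_add fun ε hε => by
    have h1 : 0 < A.1 + 1 := by linarith [A.2]
    obtain ⟨n, hn⟩ := hβ' (β - ε / (A.1 + 1)) (by linarith [div_pos hε h1])
    have h2 : a n + A.1 * (b n - β) ≤ T A := le_ciSup (bT A) n
    have h3 : (β - b n) * (A.1 + 1) ≤ ε := (le_div_iff₀ h1).1 (by linarith)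
    nlinarith [ha0 n, hβ n]
  have bT' : BddBelow (Set.range T) := ⟨0, by rintro _ ⟨A, rfl⟩; exact T0 A⟩
  have : Nonempty {A : ℝ // 0 ≤ A} := ⟨⟨0, le_rfl⟩⟩
  obtain ⟨A, hA⟩ := exists_lt_of_ciInf_lt (lt_add_of_pos_right (⨅ A, T A) hγ)
  refine ⟨A.1, β, ⨅ A, T A, A.2, hβ, fun n => (le_ciSup (bT A) n).trans hA.le, fun δ hδ => ?_⟩
  have h1 : 0 < (Λ + γ) / δ := by positivity
  let A₂ : {A : ℝ // 0 ≤ A} := ⟨A.1 + (Λ + γ) / δ, by linarith [A.2]⟩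
  obtain ⟨n, hn⟩ := exists_lt_of_lt_ciSup (sub_lt_self (T A₂) hγ)
  have h2 : ⨅ A, T A ≤ T A₂ := ciInf_le bT' A₂
  have h3 := mul_nonneg h1.le (sub_nonneg.2 (hβ n))
  have h4 := mul_nonneg A.2 (sub_nonneg.2 (hβ n))
  have hn' : T A₂ - γ < a n + (A.1 + (Λ + γ) / δ) * (b n - β) := hn
  refine ⟨n, by linarith, le_of_mul_le_mul_left ?_ h1⟩
  rw [div_mul_cancel₀ _ hδ.ne']
  linarith [T0 A₂, ha n]

theorem packing (E : Type*) [NormedAddCommGroup E] [NormedSpace ℝ E] [FiniteDimensional ℝ E]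
    (R ε : ℝ) (hε : 0 < ε) : ∃ M : ℕ, 0 < M ∧ ∀ ρ : ℝ, 0 < ρ → ∀ g : ℕ → E,
      ¬ ∀ i < M, ∀ i' < M, i ≠ i' → ε * ρ ≤ ‖g i - g i'‖ ∧ ‖g i - g i'‖ ≤ R * ρ := by
  obtain ⟨F, -, hF, hc⟩ := (isCompact_closedBall (0 : E) |R|).finite_cover_balls (half_pos hε)
  refine ⟨hF.toFinset.card + 1, Nat.succ_pos _, fun ρ hρ g h => ?_⟩
  have h1 : ∀ i : ℕ, ∃ x : E, i < hF.toFinset.card + 1 →
      x ∈ hF.toFinset ∧ ρ⁻¹ • (g i - g 0) ∈ Metric.ball x (ε / 2) := fun i => by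
    by_cases hi : i < hF.toFinset.card + 1
    · have : ρ⁻¹ • (g i - g 0) ∈ Metric.closedBall (0 : E) |R| := by
        rw [mem_closedBall_zero_iff, norm_smul, norm_inv, Real.norm_of_nonneg hρ.le,
          inv_mul_le_iff₀ hρ, mul_comm]
        by_cases h0 : i = 0
        · rw [h0, sub_self, norm_zero]; positivity
        · exact (h i hi 0 (Nat.succ_pos _) h0).2.trans
            (mul_le_mul_of_nonneg_right (le_abs_self R) hρ.le)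
      obtain ⟨x, hx, h2⟩ := Set.mem_iUnion₂.1 (hc this)
      exact ⟨x, fun _ => ⟨hF.mem_toFinset.2 hx, h2⟩⟩
    · exact ⟨0, fun h => absurd h hi⟩
  choose x hx using h1
  obtain ⟨i, hi, j, hj, hij, e⟩ := exists_ne_map_eq_of_card_lt_of_maps_to
    (s := range (hF.toFinset.card + 1)) (t := hF.toFinset) (by simp) (f := x)
    fun i hi => (hx i (mem_range.1 hi)).1
  have h2 := (hx i (mem_range.1 hi)).2
  have h3 := (hx j (mem_range.1 hj)).2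
  rw [e] at h2
  have h4 := dist_triangle_right (ρ⁻¹ • (g i - g 0)) (ρ⁻¹ • (g j - g 0)) (x j)
  rw [dist_eq_norm, ← smul_sub, sub_sub_sub_cancel_right, norm_smul, norm_inv,
    Real.norm_of_nonneg hρ.le] at h4
  have h5 : ε ≤ ρ⁻¹ * ‖g i - g j‖ := by
    rw [le_inv_mul_iff₀ hρ, mul_comm]
    exact (h i (mem_range.1 hi) j (mem_range.1 hj) hij).1
  linarith [Metric.mem_ball.1 h2, Metric.mem_ball.1 h3]

theorem var_line {E : Type*} [NormedAddCommGroup E] [InnerProductSpace ℝ E]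
    (Δ : ℕ → E) (n : ℕ) (h L ε : ℝ) (σ : E) (hh : 0 ≤ h) (hσ : ‖σ‖ ≤ L)
    (hs : ‖∑ α ∈ range n, Δ α - ((n : ℝ) * h) • σ‖ ≤ ε) :
    ∑ α ∈ range n, ‖Δ α - h • σ‖ ^ 2 + (n : ℝ) * h ^ 2 * ‖σ‖ ^ 2 - 2 * h * ε * L ≤
      ∑ α ∈ range n, ‖Δ α‖ ^ 2 := by
  have e : ∑ α ∈ range n, ‖Δ α - h • σ‖ ^ 2 = ∑ α ∈ range n, ‖Δ α‖ ^ 2 -
      2 * h * inner ℝ (∑ α ∈ range n, Δ α) σ + n * h ^ 2 * ‖σ‖ ^ 2 := by
    simp only [norm_sub_sq_real, sum_add_distrib, sum_sub_distrib, sum_const, card_range,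
      nsmul_eq_mul, inner_smul_right, sum_inner, mul_sum, norm_smul, mul_pow, Real.norm_eq_abs,
      sq_abs, mul_assoc]
  have h1 := abs_real_inner_le_norm (∑ α ∈ range n, Δ α - ((n : ℝ) * h) • σ) σ
  rw [inner_sub_left, real_inner_smul_left, real_inner_self_eq_norm_sq] at h1
  have h2 := mul_le_mul hs hσ (norm_nonneg _) ((norm_nonneg _).trans hs)
  have h3 := mul_le_mul_of_nonneg_left ((neg_le_of_abs_le h1).trans' (neg_le_neg h2)) hh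
  rw [e]
  linarith

theorem dev_line {E : Type*} [NormedAddCommGroup E] [NormedSpace ℝ E]
    (g : ℕ → E) (K : ℕ) (h Q B : ℝ) (σ : E)
    (hQ : ∑ α ∈ range K, ‖g (α + 1) - g α - h • σ‖ ^ 2 ≤ Q) (hB : 0 ≤ B)
    (hKQ : (K : ℝ) * Q ≤ B ^ 2) (α₁ α₂ : ℕ) (h1 : α₁ ≤ K) (h2 : α₂ ≤ K) :
    ‖g α₂ - g α₁ - (((α₂ : ℝ) - α₁) * h) • σ‖ ≤ 2 * B := by
  have key : ∀ α ≤ K, ‖g α - g 0 - ((α : ℝ) * h) • σ‖ ≤ B := fun α hα => by
    have e : g α - g 0 - ((α : ℝ) * h) • σ = ∑ i ∈ range α, (g (i + 1) - g i - h • σ) := by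
      rw [sum_sub_distrib, sum_range_sub, sum_const, card_range, mul_smul, Nat.cast_smul_eq_nsmul]
    rw [e]
    refine (norm_sum_le _ _).trans ((sum_le_sum_of_subset_of_nonneg (range_mono hα)
      fun _ _ _ => norm_nonneg _).trans (abs_le_of_sq_le_sq' ?_ hB).2)
    refine sq_sum_le_card_mul_sum_sq.trans (le_trans ?_ hKQ)
    rw [card_range]
    gcongr
  have e : g α₂ - g α₁ - (((α₂ : ℝ) - α₁) * h) • σ =
      (g α₂ - g 0 - ((α₂ : ℝ) * h) • σ) - (g α₁ - g 0 - ((α₁ : ℝ) * h) • σ) := by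
    rw [sub_mul, sub_smul]; abel
  rw [e]
  linarith [norm_sub_le (g α₂ - g 0 - ((α₂ : ℝ) * h) • σ) (g α₁ - g 0 - ((α₁ : ℝ) * h) • σ),
    key _ h1, key _ h2]

theorem sum_range_mul' (f : ℕ → ℝ) (a b : ℕ) :
    ∑ i ∈ range (a * b), f i = ∑ p ∈ range a, ∑ q ∈ range b, f (p * b + q) := by
  induction a with
  | zero => simp
  | succ a ih => rw [Nat.succ_mul, sum_range_add, ih, sum_range_succ]

end Vale.Agent.P208
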