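import Vale.Agent.P208.Defs

namespace Vale.Agent.P208

theorem norm_e_Geo (n : ℕ) : ‖e n‖ = 1 := by
  unfold e
  rw [lp.norm_single (by norm_num)]
  simp

theorem norm_v_le_Geo (j i : ℕ) : ‖v j i‖ ≤ r j := by
  unfold v
  split_ifs
  · simpa using (r_pos j).le
  · rw [norm_smul, norm_e_Geo, mul_one, Real.norm_eq_abs, abs_of_pos (r_pos j)]

theorem r_add_le_Geo (J k : ℕ) : r (k + J) ≤ r J * (1 / 8) ^ k := by
  induction k with
  | zero => simp
  | succ k ih =>
    have := r_succ_le (k + J)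
    rw [show k + 1 + J = k + J + 1 by ring, pow_succ]
    linarith

theorem summable_geo_Geo (a : ℝ) : Summable fun k : ℕ => a * (1 / 8 : ℝ) ^ k :=
  (summable_geometric_of_lt_one (by norm_num) (by norm_num)).mul_left a

theorem summable_v_Geo (c : ℕ → ℕ) : Summable fun j => v j (c j) :=
  Summable.of_norm_bounded (summable_geo_Geo (r 0)) fun j =>
    (norm_v_le_Geo _ _).trans (by simpa using r_add_le_Geo 0 j)

/-- the coordinate functionals -/
noncomputable def co_Geo (n : ℕ) : H2 →L[ℝ] ℝ := innerSL ℝ (e n)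

theorem co_le_Geo (n : ℕ) (z : H2) : |co_Geo n z| ≤ ‖z‖ := by
  have := abs_real_inner_le_norm (e n) z
  rw [norm_e_Geo, one_mul] at this
  simpa [co_Geo] using this

theorem co_e_Geo (n m : ℕ) : co_Geo n (e m) = if n = m then 1 else 0 := by
  simp only [co_Geo, e, innerSL_apply_apply, lp.inner_single_left, lp.single_apply, Pi.single_apply]
  split_ifs <;> simp

theorem co_v_Geo (n j i : ℕ) :
    co_Geo n (v j i) = if i ≠ 0 ∧ n = Nat.pair j i + 2 then r j else 0 := by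
  unfold v
  by_cases hi : i = 0
  · simp [hi]
  · rw [if_neg hi, map_smul, co_e_Geo]
    by_cases hn : n = Nat.pair j i + 2 <;> simp [hi, hn]

theorem co_pt_Geo (n : ℕ) (c : ℕ → ℕ) (x y : ℝ) : co_Geo n (pt c x y) =
    x * co_Geo n (e 0) + y * co_Geo n (e 1) + ∑' j, co_Geo n (v j (c j)) := by
  unfold pt
  rw [map_add, map_add, map_smul, map_smul, (co_Geo n).map_tsum (summable_v_Geo c)]
  rfl

theorem pt_sub_Geo (c c' : ℕ → ℕ) (x y x' y' : ℝ) : pt c x y - pt c' x' y' =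
    (x - x') • e 0 + (y - y') • e 1 + ∑' j, (v j (c j) - v j (c' j)) := by
  unfold pt
  rw [(summable_v_Geo c).tsum_sub (summable_v_Geo c'), sub_smul, sub_smul]
  abel

theorem norm_two_Geo (a b : ℝ) : ‖a • e 0 + b • e 1‖ ≤ |a| + |b| := by
  refine (norm_add_le _ _).trans ?_
  rw [norm_smul, norm_smul, norm_e_Geo, norm_e_Geo]
  simp

theorem pt_move (c : ℕ → ℕ) (x y x' y' : ℝ) :
    ‖pt c x y - pt c x' y'‖ ≤ |x - x'| + |y - y'| := by
  rw [pt_sub_Geo]
  simpa using norm_two_Geo _ _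

theorem pt_upd (c : ℕ → ℕ) (j i : ℕ) (hc : c j = 0) (x y : ℝ) :
    ‖pt (Function.update c j i) x y - pt c x y‖ ≤ r j := by
  rw [pt_sub_Geo, tsum_eq_single j]
  · have h0 : v j 0 = 0 := by simp [v]
    simpa [hc, h0] using norm_v_le_Geo j i
  · intro b hb
    simp [Function.update_of_ne hb]

theorem pt_low_x (c c' : ℕ → ℕ) (x y x' y' : ℝ) : |x - x'| ≤ ‖pt c x y - pt c' x' y'‖ := by
  have := co_le_Geo 0 (pt c x y - pt c' x' y')
  rw [map_sub, co_pt_Geo, co_pt_Geo] at this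
  simpa [co_e_Geo, co_v_Geo] using this

theorem pt_low_y (c c' : ℕ → ℕ) (x y x' y' : ℝ) : |y - y'| ≤ ‖pt c x y - pt c' x' y'‖ := by
  have := co_le_Geo 1 (pt c x y - pt c' x' y')
  rw [map_sub, co_pt_Geo, co_pt_Geo] at this
  simpa [co_e_Geo, co_v_Geo] using this

theorem co_pt_pair_Geo (j i : ℕ) (hi : i ≠ 0) (c : ℕ → ℕ) (x y : ℝ) :
    co_Geo (Nat.pair j i + 2) (pt c x y) = if c j = i then r j else 0 := by
  rw [co_pt_Geo, co_e_Geo, co_e_Geo, if_neg (by omega), if_neg (by omega), tsum_eq_single j]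
  · rw [co_v_Geo]
    by_cases h : c j = i
    · simp [h, hi]
    · have : ¬ i = c j := fun h' => h h'.symm
      simp [h, this]
  · intro b hb
    rw [co_v_Geo, if_neg]
    rintro ⟨-, h⟩
    exact hb (Nat.pair_eq_pair.1 (by omega : Nat.pair j i = Nat.pair b (c b))).1.symm

theorem pt_low_c0_Geo (c c' : ℕ → ℕ) (x y x' y' : ℝ) (j : ℕ) (h : c j ≠ c' j) (h0 : c j ≠ 0) :
    r j ≤ ‖pt c x y - pt c' x' y'‖ := by
  have := co_le_Geo (Nat.pair j (c j) + 2) (pt c x y - pt c' x' y')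
  rw [map_sub, co_pt_pair_Geo j _ h0, co_pt_pair_Geo j _ h0, if_pos rfl, if_neg (Ne.symm h), sub_zero,
    abs_of_pos (r_pos j)] at this
  exact this

theorem pt_low_c (c c' : ℕ → ℕ) (x y x' y' : ℝ) (j : ℕ) (h : c j ≠ c' j) :
    r j ≤ ‖pt c x y - pt c' x' y'‖ := by
  by_cases h0 : c j = 0
  · rw [norm_sub_rev]
    exact pt_low_c0_Geo c' c x' y' x y j h.symm (by omega)
  · exact pt_low_c0_Geo c c' x y x' y' j h h0

theorem pt_up (c c' : ℕ → ℕ) (x y x' y' : ℝ) (J : ℕ) (h : ∀ j < J, c j = c' j) :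
    ‖pt c x y - pt c' x' y'‖ ≤ |x - x'| + |y - y'| + 16 / 7 * r J := by
  rw [pt_sub_Geo]
  refine (norm_add_le _ _).trans (add_le_add (norm_two_Geo _ _) ?_)
  have hs := (summable_v_Geo c).sub (summable_v_Geo c')
  rw [← hs.sum_add_tsum_nat_add J, Finset.sum_eq_zero (fun j hj => by
    rw [h j (Finset.mem_range.1 hj), sub_self]), zero_add]
  have hg : HasSum (fun k : ℕ => 2 * r J * (1 / 8 : ℝ) ^ k) (2 * r J * (1 - 1 / 8)⁻¹) :=
    (hasSum_geometric_of_lt_one (by norm_num) (by norm_num)).mul_left _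
  refine (tsum_of_norm_bounded hg fun k => ?_).trans (le_of_eq (by ring))
  have h1 := norm_sub_le (v (k + J) (c (k + J))) (v (k + J) (c' (k + J)))
  have h2 := norm_v_le_Geo (k + J) (c (k + J))
  have h3 := norm_v_le_Geo (k + J) (c' (k + J))
  have h4 := r_add_le_Geo J k
  linarith

end Vale.Agent.P208
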