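import Vale.Agent.P208.Node

namespace Vale.Agent.P208

open Finset Function

variable {E : Type*} [NormedAddCommGroup E] [InnerProductSpace ℝ E]
variable {F : (ℕ → ℕ) → ℝ → ℝ → E} {L m : ℝ}

theorem varH (G : Good F L m) (ν : Node) (j U : ℕ) (hU0 : 0 < U) (hU : w ν.k = U * w j)
    (hk : ν.k ≤ j) (A β t : ℝ) (hA : 0 ≤ A) (hall : ∀ μ, EH F μ + A * (EV F μ - β) ≤ t) :
    ∑ b ∈ range (U * MM j * (TT j * (j + 8))), ∑ a ∈ range (U * MM j * (TT j * (j + 8))),
      dv (F (update ν.c j (b / (TT j * (j + 8)) % MM j + 1))) (F ν.c) ν.x0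
        ((U * MM j * (TT j * (j + 8)) : ℕ) * w (j + 1)) (w (j + 1)) (ν.x0 + a * w (j + 1))
        (ν.y0 + b * w (j + 1)) ≤
      ((U * MM j * (TT j * (j + 8)) : ℕ) : ℝ) ^ 2 * w (j + 1) ^ 3 *
        (t - (EH F ν + A * (EV F ν - β)) + 4 * L ^ 2 * (r j / w ν.k) + 4 * A * L ^ 2 / TT j) := by
  have S := stripR G ν j U hU0 hU hk
  have hs := side_row ν j U hU
  have l1 := S.long
  have l2 := S.short
  set n := U * MM j * (TT j * (j + 8)) with hn
  set h := w (j + 1) with hh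
  have hh0 : 0 < h := w_pos _
  have hu := w_pos ν.k
  have hch : ∀ b ∈ range n, ∀ a ∈ range n,
      en (F (update ν.c j (b / (TT j * (j + 8)) % MM j + 1))) (ν.x0 + a * h) (ν.y0 + b * h) h +
      A * en (fun y x => F (update ν.c j (b / (TT j * (j + 8)) % MM j + 1)) x y)
        (ν.y0 + b * h) (ν.x0 + a * h) h ≤ t + A * β := by
    intro b hb a ha
    obtain ⟨μ, h1, h2, h3, h4⟩ := child ν j U hU hk (b / (TT j * (j + 8)) % MM j + 1) a b
      (fun x hx y hy => adm_row ν j U hU _ (div_lt_Z S.hK (mem_range.1 hb)) x y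
        (by rw [← hs]; exact fine_sub _ _ hh0 _ a (mem_range.1 ha) hx)
        (fine_strip _ _ hh0 _ b S.hK hy))
    have := hall μ
    simp only [EH, EV, h1, h2, h3, h4] at this
    linarith
  have hsum := sum_le_sum fun b hb => sum_le_sum fun a ha => hch b hb a ha
  simp only [sum_add_distrib, ← mul_sum, sum_const, card_range, nsmul_eq_mul] at hsum
  rw [sum_comm] at l2
  have hh3 : 0 < h ^ 3 := by positivity
  have m1 := mul_le_mul_of_nonneg_left hsum hh3.le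
  have m2 := mul_le_mul_of_nonneg_left l2 hA
  have hT := one_le_TT j
  have e1 : 2 * h * (2 * (L * r j)) * L * (n * h) = (n : ℝ) ^ 2 * h ^ 3 * (4 * L ^ 2 * (r j / w ν.k)) := by
    rw [← hs]
    have : (n : ℝ) ≠ 0 := by
      intro h0; rw [h0] at hs; linarith
    field_simp; ring
  have e2 : A * (2 * h * ((U * MM j : ℕ) * (2 * (L * r j))) * L * (n * h)) =
      (n : ℝ) ^ 2 * h ^ 3 * (4 * A * L ^ 2 / TT j) := by
    rw [r_eq, hn]; field_simp; push_cast; ring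
  rw [e1] at l1
  rw [mul_sub, e2] at m2
  simp only [EH, EV]
  rw [← hs] at l1 ⊢
  linarith

theorem varV (G : Good F L m) (ν : Node) (j U : ℕ) (hU0 : 0 < U) (hU : w ν.k = U * w j)
    (hk : ν.k ≤ j) (β : ℝ) (hall : ∀ μ, EV F μ ≤ β) :
    ∑ a ∈ range (U * TT j * MM j * (j + 8)), ∑ b ∈ range (U * TT j * MM j * (j + 8)),
      dv (fun y x => F (update ν.c j (a / (j + 8) % MM j + 1)) x y) (fun y x => F ν.c x y) ν.y0
        ((U * TT j * MM j * (j + 8) : ℕ) * w (j + 1)) (w (j + 1)) (ν.y0 + b * w (j + 1))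
        (ν.x0 + a * w (j + 1)) ≤
      ((U * TT j * MM j * (j + 8) : ℕ) : ℝ) ^ 2 * w (j + 1) ^ 3 *
        (β - EV F ν + 4 * L ^ 2 * (r j / w ν.k)) := by
  have S := stripC G ν j U hU0 hU hk
  have hs := side_col ν j U hU
  have l1 := S.long
  set n := U * TT j * MM j * (j + 8) with hn
  set h := w (j + 1) with hh
  have hh0 : 0 < h := w_pos _
  have hu := w_pos ν.k
  have hch : ∀ a ∈ range n, ∀ b ∈ range n,
      en (fun y x => F (update ν.c j (a / (j + 8) % MM j + 1)) x y)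
        (ν.y0 + b * h) (ν.x0 + a * h) h ≤ β := by
    intro a ha b hb
    obtain ⟨μ, h1, h2, h3, h4⟩ := child ν j U hU hk (a / (j + 8) % MM j + 1) a b
      (fun x hx y hy => adm_col ν j U hU _ (div_lt_Z S.hK (mem_range.1 ha)) x y
        (fine_strip _ _ hh0 _ a S.hK hx)
        (by rw [← hs]; exact fine_sub _ _ hh0 _ b (mem_range.1 hb) hy))
    have := hall μ
    simpa only [EV, h1, h2, h3, h4] using this
  have hsum := sum_le_sum fun a ha => sum_le_sum fun b hb => hch a ha b hb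
  simp only [sum_const, card_range, nsmul_eq_mul] at hsum
  have hh3 : 0 < h ^ 3 := by positivity
  have m1 := mul_le_mul_of_nonneg_left hsum hh3.le
  have e1 : 2 * h * (2 * (L * r j)) * L * (n * h) = (n : ℝ) ^ 2 * h ^ 3 * (4 * L ^ 2 * (r j / w ν.k)) := by
    rw [← hs]
    have : (n : ℝ) ≠ 0 := by
      intro h0; rw [h0] at hs; linarith
    field_simp; ring
  rw [e1] at l1
  simp only [EV]
  rw [← hs] at l1 ⊢
  linarith

theorem good_level (M T k : ℕ) (hM : 0 < M) (hT : 0 < T) (θ : ℝ) (hθ : 0 < θ) :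
    ∃ j, k ≤ j ∧ MM j = M ∧ TT j = T ∧ r j / w k ≤ θ ∧ w (j + 1) ≤ θ * r j := by
  obtain ⟨K1, hK1⟩ := exists_nat_ge (1 / θ)
  obtain ⟨j, hj, hMj, hTj⟩ := exists_level M T (k + K1 + 1) hM hT
  obtain ⟨j', rfl⟩ : ∃ j', j = j' + 1 := ⟨j - 1, by omega⟩
  have hu := w_pos k
  have hr := r_pos (j' + 1)
  have hh0 := w_pos (j' + 1 + 1)
  have hκ1 : 1 ≤ ((j' : ℝ) + 8) * θ := by
    have : ((K1 : ℕ) : ℝ) ≤ (j' : ℝ) := by exact_mod_cast (by omega : K1 ≤ j')
    rw [div_le_iff₀ hθ] at hK1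
    nlinarith
  refine ⟨j' + 1, by omega, hMj, hTj, ?_, ?_⟩
  · rw [div_le_iff₀ hu]
    have h1 := r_le_w (j' + 1)
    have h2 : r j' = ((j' : ℝ) + 8) * w (j' + 1) := rfl
    have h3 := r_le_w j'
    have h4 := w_anti k (j' - k)
    rw [Nat.add_sub_cancel' (by omega)] at h4
    have h5 := mul_le_mul_of_nonneg_left hκ1 (w_pos (j' + 1)).le
    have h6 := mul_le_mul_of_nonneg_left (h2 ▸ h3.trans h4) hθ.le
    nlinarith
  · rw [r_eq]
    push_cast
    nlinarith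

theorem exists_theta (a b c d : ℝ) (ha : 0 ≤ a) (hb : 0 < b) (hc : 0 ≤ c) (hd : 0 < d) :
    ∃ θ : ℝ, 0 < θ ∧ a * θ ≤ b ∧ c * θ ≤ d := by
  refine ⟨min (b / (a + 1)) (d / (c + 1)), by positivity, ?_, ?_⟩
  · refine (mul_le_mul_of_nonneg_left (min_le_left _ _) ha).trans ?_
    rw [← mul_div_assoc, div_le_iff₀ (by positivity)]
    nlinarith
  · refine (mul_le_mul_of_nonneg_left (min_le_right _ _) hc).trans ?_
    rw [← mul_div_assoc, div_le_iff₀ (by positivity)]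
    nlinarith

theorem err_le (L M T ρ h u θ m : ℝ) (hL : 0 ≤ L) (hT : 0 ≤ T) (hρ : 0 < ρ)
    (h1 : ρ / u ≤ θ) (h2 : h ≤ θ * ρ) (h3 : 2 * L * (1 + M ^ 2 * T) * θ ≤ m / 8) :
    2 * L * h + 2 * L * M ^ 2 * T * ρ ^ 2 / u ≤ m / 8 * ρ := by
  have b1 : 2 * L * h ≤ 2 * L * (θ * ρ) := mul_le_mul_of_nonneg_left h2 (by positivity)
  have b2 : 2 * L * M ^ 2 * T * ρ * (ρ / u) ≤ 2 * L * M ^ 2 * T * ρ * θ :=
    mul_le_mul_of_nonneg_left h1 (by positivity)
  have b3 := mul_le_mul_of_nonneg_right h3 hρ.le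
  calc _ = 2 * L * h + 2 * L * M ^ 2 * T * ρ * (ρ / u) := by ring
    _ ≤ 2 * L * (θ * ρ) + 2 * L * M ^ 2 * T * ρ * θ := add_le_add b1 b2
    _ = 2 * L * (1 + M ^ 2 * T) * θ * ρ := by ring
    _ ≤ _ := b3

theorem no_good [FiniteDimensional ℝ E] (G : Good F L m) : False := by
  have hL := G.hL
  have hm := G.hm
  obtain ⟨M, hM, hpack⟩ := packing E (2 * L + m / 2) (m / 2) (by positivity)
  have hM' : (0 : ℝ) < M := by exact_mod_cast hM
  set γ : ℝ := (m / 32) ^ 2 / (8 * (M : ℝ) ^ 3) with hγ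
  have hγ0 : 0 < γ := by positivity
  obtain ⟨A, β, t, hA, hβ, ht, hnode⟩ := extremal (EH F) (EV F) (L ^ 2)
    (fun ν => en_nonneg _ _ _ _ (w_pos _)) (EH_le G) (EV_le G) γ hγ0
  obtain ⟨T0, hT0⟩ := exists_nat_ge (4 * A * L ^ 2 / γ)
  set T := T0 + 1 with hTdef
  have hT : 0 < T := by omega
  have hT1 : (1 : ℝ) ≤ T := by exact_mod_cast hT
  have hTA : 4 * A * L ^ 2 / T ≤ γ := by
    rw [div_le_iff₀ (by positivity)]
    rw [div_le_iff₀ hγ0] at hT0
    have : (T : ℝ) = T0 + 1 := by rw [hTdef]; push_cast; ring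
    nlinarith
  set δ : ℝ := γ / (T : ℝ) ^ 2 with hδ
  have hδ0 : 0 < δ := by positivity
  have hδγ : δ ≤ γ := div_le_self hγ0.le (one_le_pow₀ hT1)
  obtain ⟨ν, hν1, hν2⟩ := hnode δ hδ0
  obtain ⟨θ, hθ, hθ1, hθ2⟩ := exists_theta (4 * L ^ 2) δ (2 * L * (1 + (M : ℝ) ^ 2 * T)) (m / 8)
    (by positivity) hδ0 (by positivity) (by positivity)
  obtain ⟨j, hk, hMj, hTj, hru, hhr⟩ := good_level M T ν.k hM hT θ hθ
  obtain ⟨U, hU0, hU⟩ := exists_U ν.k (j - ν.k)
  rw [Nat.add_sub_cancel' hk] at hU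
  have hr := r_pos j
  have hh0 := w_pos (j + 1)
  have c1 : 4 * L ^ 2 * (r j / w ν.k) ≤ δ :=
    (mul_le_mul_of_nonneg_left hru (by positivity)).trans hθ1
  have e1 := err_le L M T (r j) (w (j + 1)) (w ν.k) θ m hL (by positivity) hr hru hhr hθ2
  have vH := varH G ν j U hU0 hU hk A β (t + γ) hA ht
  have vV := varV G ν j U hU0 hU hk β hβ
  have SR := stripR G ν j U hU0 hU hk
  have SC := stripC G ν j U hU0 hU hk
  have hsr := side_row ν j U hU
  have aR := adm_row ν j U hU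
  have aC := adm_col ν j U hU
  have sR := row_sub ν j U hU
  have sC := col_sub ν j U hU
  rw [hMj, hTj] at vH vV SR SC hsr aR aC sR sC
  obtain ⟨g, X, Y, P, Q, hP, hQ, hX, hY, hg⟩ := cross (F ν.c) (fun i => F (update ν.c j (i + 1)))
    ν.x0 ν.y0 (w (j + 1)) L (L * r j) (4 * γ) (2 * δ) (m * r j / 32) U M T (j + 8) hU0 hM hT SR SC
    (by positivity) (by positivity)
    (by rw [hδ]; field_simp; norm_num) (by positivity)
    (by rw [← r_eq, hγ]; apply le_of_eq; field_simp; ring)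
    (vH.trans (mul_le_mul_of_nonneg_left (by linarith) (by positivity)))
    (vV.trans (mul_le_mul_of_nonneg_left (by linarith) (by positivity)))
  refine hpack (r j) hr g fun i hi i' hi' hne => ?_
  have herr := hg i hi i' hi'
  rw [hsr, ← r_eq] at herr
  have hxm := sC _ (lt_mul_of P M i' _ hP hi') (hX i' hi')
  have hym := sR _ (lt_mul_of Q M i _ hQ hi) (hY i hi)
  have a1 := aR _ (lt_mul_of Q M i _ hQ hi) _ _ hxm (hY i hi)
  have a2 := aC _ (lt_mul_of P M i' _ hP hi') _ _ (hX i' hi') hym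
  rw [mul_add_mod' Q M i hi] at a1
  rw [mul_add_mod' P M i' hi'] at a2
  have a0 := ν.adm _ hxm _ hym
  have s1 := G.sep _ _ _ _ _ _ (by omega) a1 a2
  have u1 := G.upd _ _ _ _ _ (ν.hc j hk) a0 a1
  have u2 := G.upd _ _ _ _ _ (ν.hc j hk) a0 a2
  set D := F (update ν.c j (i + 1)) (X i') (Y i) - F (update ν.c j (i' + 1)) (X i') (Y i) with hD
  have s2 : ‖D‖ ≤ 2 * L * r j := by
    calc ‖D‖ = ‖(F (update ν.c j (i + 1)) (X i') (Y i) - F ν.c (X i') (Y i)) -
          (F (update ν.c j (i' + 1)) (X i') (Y i) - F ν.c (X i') (Y i))‖ := by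
          congr 1; rw [hD]; abel
      _ ≤ _ := (norm_sub_le _ _).trans (by linarith)
  have herr' : ‖g i - g i' - D‖ ≤ m / 2 * r j := by
    have : 0 < m * r j := by positivity
    linarith
  have n1 := norm_sub_norm_le (g i - g i') D
  have n2 := norm_sub_norm_le D (g i - g i')
  rw [norm_sub_rev D] at n2
  constructor <;> linarith

end Vale.Agent.P208
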