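import Vale.Agent.P208.Defs
import Vale.Agent.P208.Cross

namespace Vale.Agent.P208

open Finset Function

/-- an aligned square on a sheet -/
structure Node where
  k : ℕ
  c : ℕ → ℕ
  x0 : ℝ
  y0 : ℝ
  hx : ∃ a : ℤ, x0 = a * w k
  hy : ∃ b : ℤ, y0 = b * w k
  hc : ∀ j, k ≤ j → c j = 0
  adm : ∀ x ∈ Set.Icc x0 (x0 + w k), ∀ y ∈ Set.Icc y0 (y0 + w k), Adm c x y

instance : Nonempty Node :=
  ⟨⟨0, fun _ => 0, 0, 0, ⟨0, by simp⟩, ⟨0, by simp⟩, fun _ _ => rfl,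
    fun _ _ _ _ _ h => absurd rfl h⟩⟩

theorem r_eq (j : ℕ) : r j = ((j + 8 : ℕ) : ℝ) * w (j + 1) := by
  simp [r]

theorem exists_U (k d : ℕ) : ∃ U : ℕ, 0 < U ∧ w k = U * w (k + d) := by
  induction d with
  | zero => exact ⟨1, one_pos, by simp⟩
  | succ d ih =>
    obtain ⟨U, hU, h⟩ := ih
    refine ⟨U * (MM (k + d) * TT (k + d) * (k + d + 8)), ?_, ?_⟩
    · have := MM_pos (k + d)
      have := TT_pos (k + d)
      positivity
    · rw [h, w_eq (k + d), r_eq, ← add_assoc]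
      push_cast; ring

theorem w_anti (k d : ℕ) : w (k + d) ≤ w k := by
  obtain ⟨U, hU, h⟩ := exists_U k d
  have h1 : (1 : ℝ) ≤ U := by exact_mod_cast hU
  have := w_pos (k + d)
  nlinarith

theorem adm_upd {c : ℕ → ℕ} {x y : ℝ} (h : Adm c x y) (j i : ℕ)
    (hj : (∃ p : ℤ, p % (MM j : ℤ) + 1 = (i : ℤ) ∧ (p : ℝ) * r j ≤ x ∧ x ≤ ((p : ℝ) + 1) * r j) ∨
    (∃ q : ℤ, q % (MM j : ℤ) + 1 = (i : ℤ) ∧ (q : ℝ) * ((TT j : ℝ) * r j) ≤ y ∧
      y ≤ ((q : ℝ) + 1) * ((TT j : ℝ) * r j))) : Adm (update c j i) x y := by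
  intro j' hj'
  by_cases e : j' = j
  · subst e
    simpa using hj
  · rw [update_of_ne e] at hj' ⊢
    exact h j' hj'

theorem strip_sub (a k : ℝ) (hk : 0 < k) (q Z : ℕ) (hq : q < Z) :
    Set.Icc (a + q * k) (a + (q + 1) * k) ⊆ Set.Icc a (a + Z * k) := by
  have h1 : (q : ℝ) + 1 ≤ Z := by exact_mod_cast hq
  have h2 : (0 : ℝ) ≤ q := Nat.cast_nonneg q
  apply Set.Icc_subset_Icc <;> nlinarith

section
variable (ν : Node) (j U : ℕ) (hU : w ν.k = U * w j)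
include hU

theorem side_row : ((U * MM j * (TT j * (j + 8)) : ℕ) : ℝ) * w (j + 1) = w ν.k := by
  rw [hU, w_eq j, r_eq]; push_cast; ring

theorem side_col : ((U * TT j * MM j * (j + 8) : ℕ) : ℝ) * w (j + 1) = w ν.k := by
  rw [hU, w_eq j, r_eq]; push_cast; ring

theorem row_sub (q : ℕ) (hq : q < U * MM j) :
    Set.Icc (ν.y0 + q * ((TT j * (j + 8) : ℕ) * w (j + 1)))
      (ν.y0 + (q + 1) * ((TT j * (j + 8) : ℕ) * w (j + 1))) ⊆ Set.Icc ν.y0 (ν.y0 + w ν.k) := by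
  have h1 : (0 : ℝ) < (TT j * (j + 8) : ℕ) * w (j + 1) :=
    mul_pos (by exact_mod_cast Nat.mul_pos (TT_pos j) (by omega)) (w_pos _)
  refine (strip_sub _ _ h1 q _ hq).trans (le_of_eq ?_)
  rw [← side_row ν j U hU]; congr 2; push_cast; ring

theorem col_sub (p : ℕ) (hp : p < U * TT j * MM j) :
    Set.Icc (ν.x0 + p * ((j + 8 : ℕ) * w (j + 1)))
      (ν.x0 + (p + 1) * ((j + 8 : ℕ) * w (j + 1))) ⊆ Set.Icc ν.x0 (ν.x0 + w ν.k) := by
  have h1 : (0 : ℝ) < (j + 8 : ℕ) * w (j + 1) :=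
    mul_pos (by exact_mod_cast (by omega : 0 < j + 8)) (w_pos _)
  refine (strip_sub _ _ h1 p _ hp).trans (le_of_eq ?_)
  rw [← side_col ν j U hU]; congr 2; push_cast; ring

theorem adm_row (q : ℕ) (hq : q < U * MM j) (x y : ℝ) (hx : x ∈ Set.Icc ν.x0 (ν.x0 + w ν.k))
    (hy : y ∈ Set.Icc (ν.y0 + q * ((TT j * (j + 8) : ℕ) * w (j + 1)))
      (ν.y0 + (q + 1) * ((TT j * (j + 8) : ℕ) * w (j + 1)))) :
    Adm (update ν.c j (q % MM j + 1)) x y := by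
  refine adm_upd (ν.adm x hx y (row_sub ν j U hU q hq hy)) j _ (Or.inr ?_)
  obtain ⟨b, hb⟩ := ν.hy
  have e : ((TT j * (j + 8) : ℕ) : ℝ) * w (j + 1) = TT j * r j := by rw [r_eq]; push_cast; ring
  have e2 : ν.y0 = (b * U * MM j) * (TT j * r j) := by rw [hb, hU, w_eq j]; ring
  rw [e, e2] at hy
  refine ⟨q + b * U * MM j, ?_, ?_, ?_⟩
  · rw [Int.add_mul_emod_self_right]; push_cast; rfl
  · push_cast; linarith [hy.1]
  · push_cast; linarith [hy.2]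

theorem adm_col (p : ℕ) (hp : p < U * TT j * MM j) (x y : ℝ)
    (hx : x ∈ Set.Icc (ν.x0 + p * ((j + 8 : ℕ) * w (j + 1)))
      (ν.x0 + (p + 1) * ((j + 8 : ℕ) * w (j + 1)))) (hy : y ∈ Set.Icc ν.y0 (ν.y0 + w ν.k)) :
    Adm (update ν.c j (p % MM j + 1)) x y := by
  refine adm_upd (ν.adm x (col_sub ν j U hU p hp hx) y hy) j _ (Or.inl ?_)
  obtain ⟨a, ha⟩ := ν.hx
  have e2 : ν.x0 = (a * U * TT j * MM j) * r j := by rw [ha, hU, w_eq j]; ring
  rw [← r_eq, e2] at hx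
  refine ⟨p + a * U * TT j * MM j, ?_, ?_, ?_⟩
  · rw [Int.add_mul_emod_self_right]; push_cast; rfl
  · push_cast; linarith [hx.1]
  · push_cast; linarith [hx.2]

theorem child (hk : ν.k ≤ j) (i α β : ℕ)
    (h : ∀ x ∈ Set.Icc (ν.x0 + α * w (j + 1)) (ν.x0 + α * w (j + 1) + w (j + 1)),
      ∀ y ∈ Set.Icc (ν.y0 + β * w (j + 1)) (ν.y0 + β * w (j + 1) + w (j + 1)),
        Adm (update ν.c j i) x y) :
    ∃ μ : Node, μ.k = j + 1 ∧ μ.c = update ν.c j i ∧ μ.x0 = ν.x0 + α * w (j + 1) ∧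
      μ.y0 = ν.y0 + β * w (j + 1) := by
  obtain ⟨a, ha⟩ := ν.hx
  obtain ⟨b, hb⟩ := ν.hy
  refine ⟨⟨j + 1, update ν.c j i, ν.x0 + α * w (j + 1), ν.y0 + β * w (j + 1),
    ⟨a * (U * MM j * (TT j * (j + 8)) : ℕ) + α, ?_⟩,
    ⟨b * (U * MM j * (TT j * (j + 8)) : ℕ) + β, ?_⟩, fun j' hj' => ?_, h⟩, rfl, rfl, rfl, rfl⟩
  · rw [ha, ← side_row ν j U hU]; push_cast; ring
  · rw [hb, ← side_row ν j U hU]; push_cast; ring
  · rw [update_of_ne (by omega)]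
    exact ν.hc j' (by omega)

end

variable {E : Type*} [NormedAddCommGroup E] [InnerProductSpace ℝ E]

/-- what a bi-Lipschitz embedding gives -/
structure Good (F : (ℕ → ℕ) → ℝ → ℝ → E) (L m : ℝ) : Prop where
  hL : 0 ≤ L
  hm : 0 < m
  lip : ∀ c x y x' y', Adm c x y → Adm c x' y' → ‖F c x y - F c x' y'‖ ≤ L * (|x - x'| + |y - y'|)
  upd : ∀ c j i x y, c j = 0 → Adm c x y → Adm (update c j i) x y →
    ‖F (update c j i) x y - F c x y‖ ≤ L * r j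
  sep : ∀ c j i i' x y, i ≠ i' → Adm (update c j i) x y → Adm (update c j i') x y →
    m * r j ≤ ‖F (update c j i) x y - F (update c j i') x y‖

variable {F : (ℕ → ℕ) → ℝ → ℝ → E} {L m : ℝ}

theorem stripR (G : Good F L m) (ν : Node) (j U : ℕ) (hU0 : 0 < U) (hU : w ν.k = U * w j)
    (hk : ν.k ≤ j) :
    Strip (F ν.c) (fun q => F (update ν.c j (q % MM j + 1))) ν.x0 ν.y0 (w (j + 1)) L (L * r j)
      (U * MM j) (TT j * (j + 8)) where
  hZ := Nat.mul_pos hU0 (MM_pos j)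
  hK := Nat.mul_pos (TT_pos j) (by omega)
  hh := w_pos _
  hL := G.hL
  lipB := by
    rw [side_row ν j U hU]
    exact fun s hs s' hs' t ht t' ht' => G.lip _ _ _ _ _ (ν.adm s hs t ht) (ν.adm s' hs' t' ht')
  lipC := by
    rw [side_row ν j U hU]
    exact fun q hq s hs s' hs' t ht t' ht' => G.lip _ _ _ _ _ (adm_row ν j U hU q hq s t hs ht)
      (adm_row ν j U hU q hq s' t' hs' ht')
  near := by
    rw [side_row ν j U hU]
    exact fun q hq s hs t ht => G.upd _ _ _ _ _ (ν.hc j hk)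
      (ν.adm s hs t (row_sub ν j U hU q hq ht)) (adm_row ν j U hU q hq s t hs ht)

theorem stripC (G : Good F L m) (ν : Node) (j U : ℕ) (hU0 : 0 < U) (hU : w ν.k = U * w j)
    (hk : ν.k ≤ j) :
    Strip (fun y x => F ν.c x y) (fun p y x => F (update ν.c j (p % MM j + 1)) x y) ν.y0 ν.x0
      (w (j + 1)) L (L * r j) (U * TT j * MM j) (j + 8) where
  hZ := Nat.mul_pos (Nat.mul_pos hU0 (TT_pos j)) (MM_pos j)
  hK := by omega
  hh := w_pos _
  hL := G.hL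
  lipB := by
    rw [side_col ν j U hU]
    exact fun s hs s' hs' t ht t' ht' =>
      (G.lip _ _ _ _ _ (ν.adm t ht s hs) (ν.adm t' ht' s' hs')).trans_eq (by ring)
  lipC := by
    rw [side_col ν j U hU]
    exact fun q hq s hs s' hs' t ht t' ht' => (G.lip _ _ _ _ _ (adm_col ν j U hU q hq t s ht hs)
      (adm_col ν j U hU q hq t' s' ht' hs')).trans_eq (by ring)
  near := by
    rw [side_col ν j U hU]
    exact fun q hq s hs t ht => G.upd _ _ _ _ _ (ν.hc j hk)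
      (ν.adm t (col_sub ν j U hU q hq ht) s hs) (adm_col ν j U hU q hq t s ht hs)

/-- horizontal energy -/
noncomputable def EH (F : (ℕ → ℕ) → ℝ → ℝ → E) (ν : Node) : ℝ := en (F ν.c) ν.x0 ν.y0 (w ν.k)
/-- vertical energy -/
noncomputable def EV (F : (ℕ → ℕ) → ℝ → ℝ → E) (ν : Node) : ℝ :=
  en (fun y x => F ν.c x y) ν.y0 ν.x0 (w ν.k)

theorem EH_le (G : Good F L m) (ν : Node) : EH F ν ≤ L ^ 2 := by
  have hu := w_pos ν.k
  refine en_le _ _ _ _ L hu (cont2 (F ν.c) L _ _ _ _ _ (right_mem _ _ hu.le) (left_mem _ _ hu.le)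
    (fun s hs t ht t' ht' => by simpa using G.lip _ _ _ _ _ (ν.adm s hs t ht) (ν.adm s hs t' ht')))
    (fun t ht => ?_)
  simpa [abs_of_pos hu] using G.lip _ _ _ _ _ (ν.adm _ (right_mem _ _ hu.le) t ht)
    (ν.adm _ (left_mem _ _ hu.le) t ht)

theorem EV_le (G : Good F L m) (ν : Node) : EV F ν ≤ L ^ 2 := by
  have hu := w_pos ν.k
  refine en_le _ _ _ _ L hu (cont2 (fun y x => F ν.c x y) L _ _ _ _ _ (right_mem _ _ hu.le)
    (left_mem _ _ hu.le)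
    (fun s hs t ht t' ht' => by simpa using G.lip _ _ _ _ _ (ν.adm t ht s hs) (ν.adm t' ht' s hs)))
    (fun t ht => ?_)
  simpa [abs_of_pos hu] using G.lip _ _ _ _ _ (ν.adm t ht _ (right_mem _ _ hu.le))
    (ν.adm t ht _ (left_mem _ _ hu.le))

end Vale.Agent.P208
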