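import Vale.Agent.P208.Ext

namespace Vale.Agent.P208

open Finset

variable {E : Type*} [NormedAddCommGroup E] [InnerProductSpace ℝ E]

/-- normalised energy of the increments in the first variable over a square -/
noncomputable def en (G : ℝ → ℝ → E) (s0 t0 u : ℝ) : ℝ :=
  (∫ t in t0..t0 + u, ‖G (s0 + u) t - G s0 t‖ ^ 2) / u ^ 3

/-- mean slope of the base map -/
noncomputable def sl (B : ℝ → ℝ → E) (s0 u t : ℝ) : E := u⁻¹ • (B (s0 + u) t - B s0 t)

/-- deviation of one small increment from the mean slope -/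
noncomputable def dv (G B : ℝ → ℝ → E) (s0 u h s t : ℝ) : ℝ :=
  ∫ τ in t..t + h, ‖G (s + h) τ - G s τ - h • sl B s0 u τ‖ ^ 2

theorem dv_nonneg (G B : ℝ → ℝ → E) (s0 u h s t : ℝ) (hh : 0 ≤ h) : 0 ≤ dv G B s0 u h s t :=
  intervalIntegral.integral_nonneg (by linarith) (fun _ _ => by positivity)

theorem en_nonneg (G : ℝ → ℝ → E) (s0 t0 u : ℝ) (hu : 0 < u) : 0 ≤ en G s0 t0 u :=
  div_nonneg (intervalIntegral.integral_nonneg (by linarith) (fun _ _ => by positivity))
    (by positivity)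

theorem cont_of_lip (g : ℝ → E) (a b L : ℝ)
    (h : ∀ t ∈ Set.Icc a b, ∀ t' ∈ Set.Icc a b, ‖g t - g t'‖ ≤ L * |t - t'|) :
    ContinuousOn g (Set.Icc a b) := by
  have : LipschitzOnWith (Real.toNNReal L) g (Set.Icc a b) := by
    refine LipschitzOnWith.of_dist_le_mul fun t ht t' ht' => ?_
    rw [dist_eq_norm, Real.dist_eq]
    refine (h t ht t' ht').trans ?_
    exact mul_le_mul_of_nonneg_right (Real.le_coe_toNNReal L) (abs_nonneg _)
  exact this.continuousOn

theorem ii_of_cont (g : ℝ → ℝ) (a h : ℝ) (hh : 0 ≤ h) (hg : ContinuousOn g (Set.Icc a (a + h))) :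
    IntervalIntegrable g MeasureTheory.volume a (a + h) := by
  apply ContinuousOn.intervalIntegrable
  rwa [Set.uIcc_of_le (by linarith)]

theorem en_le (G : ℝ → ℝ → E) (s0 t0 u L : ℝ) (hu : 0 < u)
    (hc : ContinuousOn (fun t => G (s0 + u) t - G s0 t) (Set.Icc t0 (t0 + u)))
    (hb : ∀ t ∈ Set.Icc t0 (t0 + u), ‖G (s0 + u) t - G s0 t‖ ≤ L * u) : en G s0 t0 u ≤ L ^ 2 := by
  unfold en
  rw [div_le_iff₀ (by positivity)]
  have h1 : (∫ t in t0..t0 + u, ‖G (s0 + u) t - G s0 t‖ ^ 2) ≤ ∫ _ in t0..t0 + u, (L * u) ^ 2 := by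
    apply intervalIntegral.integral_mono_on (by linarith) (ii_of_cont _ _ _ hu.le (hc.norm.pow 2))
      (by simp)
    intro t ht
    exact pow_le_pow_left₀ (norm_nonneg _) (hb t ht) 2
  rw [intervalIntegral.integral_const] at h1
  simp only [add_sub_cancel_left, smul_eq_mul] at h1
  nlinarith

theorem sum_en (B : ℝ → ℝ → E) (G : ℕ → ℕ → ℝ → ℝ → E) (s0 t0 h L ε : ℝ) (n : ℕ) (hn : 0 < n)
    (hh : 0 < h)
    (hG : ∀ α < n, ∀ β < n, ContinuousOn (fun t => G α β (s0 + α * h + h) t - G α β (s0 + α * h) t)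
      (Set.Icc (t0 + β * h) (t0 + β * h + h)))
    (hB : ContinuousOn (fun t => B (s0 + n * h) t - B s0 t) (Set.Icc t0 (t0 + n * h)))
    (hb : ∀ t ∈ Set.Icc t0 (t0 + n * h), ‖B (s0 + n * h) t - B s0 t‖ ≤ L * (n * h))
    (htel : ∀ β < n, ∀ t ∈ Set.Icc (t0 + β * h) (t0 + β * h + h),
      ‖∑ α ∈ range n, (G α β (s0 + α * h + h) t - G α β (s0 + α * h) t) -
        (B (s0 + n * h) t - B s0 t)‖ ≤ ε) :
    ∑ β ∈ range n, ∑ α ∈ range n, dv (G α β) B s0 (n * h) h (s0 + α * h) (t0 + β * h) +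
        (n : ℝ) ^ 2 * h ^ 3 * en B s0 t0 (n * h) - 2 * h * ε * L * (n * h) ≤
      h ^ 3 * ∑ β ∈ range n, ∑ α ∈ range n, en (G α β) (s0 + α * h) (t0 + β * h) h := by
  have hn' : (0 : ℝ) < n := by exact_mod_cast hn
  have hu : (0 : ℝ) < n * h := by positivity
  have hsub : ∀ β < n, Set.Icc (t0 + β * h) (t0 + β * h + h) ⊆ Set.Icc t0 (t0 + n * h) := by
    intro β hβ
    have h1 : (β : ℝ) + 1 ≤ n := by exact_mod_cast hβ
    have h2 : (0 : ℝ) ≤ β := Nat.cast_nonneg β
    apply Set.Icc_subset_Icc <;> nlinarith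
  have hσc : ContinuousOn (fun t => sl B s0 (n * h) t) (Set.Icc t0 (t0 + n * h)) :=
    hB.const_smul _
  have key : ∀ β ∈ range n,
      ∑ α ∈ range n, dv (G α β) B s0 (n * h) h (s0 + α * h) (t0 + β * h) +
        (n : ℝ)⁻¹ * (∫ t in (t0 + β * h)..(t0 + β * h + h), ‖B (s0 + n * h) t - B s0 t‖ ^ 2) -
          2 * h * ε * L * h ≤
      h ^ 3 * ∑ α ∈ range n, en (G α β) (s0 + α * h) (t0 + β * h) h := by
    intro β hβ
    have hβ' := mem_range.1 hβ
    have i1 : ∀ α ∈ range n, IntervalIntegrable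
        (fun t => ‖G α β (s0 + α * h + h) t - G α β (s0 + α * h) t - h • sl B s0 (n * h) t‖ ^ 2)
        MeasureTheory.volume (t0 + β * h) (t0 + β * h + h) := fun α hα =>
      ii_of_cont _ _ _ hh.le ((((hG α (mem_range.1 hα) β hβ').sub
        ((hσc.mono (hsub β hβ')).const_smul h)).norm).pow 2)
    have i2 : ∀ α ∈ range n, IntervalIntegrable
        (fun t => ‖G α β (s0 + α * h + h) t - G α β (s0 + α * h) t‖ ^ 2)
        MeasureTheory.volume (t0 + β * h) (t0 + β * h + h) := fun α hα =>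
      ii_of_cont _ _ _ hh.le (((hG α (mem_range.1 hα) β hβ').norm).pow 2)
    have i3 : IntervalIntegrable (fun t => ‖B (s0 + n * h) t - B s0 t‖ ^ 2)
        MeasureTheory.volume (t0 + β * h) (t0 + β * h + h) :=
      ii_of_cont _ _ _ hh.le (((hB.mono (hsub β hβ')).norm).pow 2)
    have e1 : h ^ 3 * ∑ α ∈ range n, en (G α β) (s0 + α * h) (t0 + β * h) h =
        ∫ t in (t0 + β * h)..(t0 + β * h + h),
          ∑ α ∈ range n, ‖G α β (s0 + α * h + h) t - G α β (s0 + α * h) t‖ ^ 2 := by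
      rw [intervalIntegral.integral_finsetSum i2, mul_sum]
      refine sum_congr rfl fun α _ => ?_
      unfold en
      field_simp
    have j1 := IntervalIntegrable.sum (range n) i1
    have j2 := IntervalIntegrable.sum (range n) i2
    rw [Finset.sum_fn] at j1 j2
    have e2 : ∑ α ∈ range n, dv (G α β) B s0 (n * h) h (s0 + α * h) (t0 + β * h) +
        (n : ℝ)⁻¹ * (∫ t in (t0 + β * h)..(t0 + β * h + h), ‖B (s0 + n * h) t - B s0 t‖ ^ 2) -
          2 * h * ε * L * h = ∫ t in (t0 + β * h)..(t0 + β * h + h),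
          (∑ α ∈ range n,
            ‖G α β (s0 + α * h + h) t - G α β (s0 + α * h) t - h • sl B s0 (n * h) t‖ ^ 2 +
            (n : ℝ)⁻¹ * ‖B (s0 + n * h) t - B s0 t‖ ^ 2 - 2 * h * ε * L) := by
      rw [intervalIntegral.integral_sub (j1.add (i3.const_mul _)) (by simp),
        intervalIntegral.integral_add j1 (i3.const_mul _), intervalIntegral.integral_finsetSum i1,
        intervalIntegral.integral_const_mul, intervalIntegral.integral_const]
      simp only [dv, add_sub_cancel_left, smul_eq_mul]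
      ring
    rw [e1, e2]
    apply intervalIntegral.integral_mono_on (by linarith)
      ((j1.add (i3.const_mul _)).sub (by simp)) j2
    intro t ht
    have hσ : ‖sl B s0 (n * h) t‖ = (n * h)⁻¹ * ‖B (s0 + n * h) t - B s0 t‖ := by
      rw [sl, norm_smul, Real.norm_eq_abs, abs_of_pos (by positivity)]
    have hσ' : ‖sl B s0 (n * h) t‖ ≤ L := by
      rw [hσ, inv_mul_le_iff₀ hu]
      exact (hb t (hsub β hβ' ht)).trans_eq (mul_comm _ _)
    have hv := var_line (fun α => G α β (s0 + α * h + h) t - G α β (s0 + α * h) t) n h L ε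
      (sl B s0 (n * h) t) hh.le hσ' (by
        rw [sl, smul_smul, mul_inv_cancel₀ hu.ne', one_smul]
        exact htel β hβ' t ht)
    have e3 : (n : ℝ) * h ^ 2 * ‖sl B s0 (n * h) t‖ ^ 2 =
        (n : ℝ)⁻¹ * ‖B (s0 + n * h) t - B s0 t‖ ^ 2 := by
      rw [hσ]; field_simp
    rw [e3] at hv
    exact hv
  have hs := sum_le_sum key
  rw [← mul_sum, sum_sub_distrib, sum_add_distrib, ← mul_sum] at hs
  have e4 : ∑ β ∈ range n, (∫ t in (t0 + β * h)..(t0 + β * h + h),
      ‖B (s0 + n * h) t - B s0 t‖ ^ 2) = ∫ t in t0..(t0 + n * h), ‖B (s0 + n * h) t - B s0 t‖ ^ 2 := by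
    have := intervalIntegral.sum_integral_adjacent_intervals (μ := MeasureTheory.volume)
      (f := fun t => ‖B (s0 + n * h) t - B s0 t‖ ^ 2) (a := fun β : ℕ => t0 + β * h) (n := n)
      (fun β hβ => by
        have : IntervalIntegrable (fun t => ‖B (s0 + n * h) t - B s0 t‖ ^ 2)
            MeasureTheory.volume (t0 + β * h) (t0 + β * h + h) :=
          ii_of_cont _ _ _ hh.le (((hB.mono (hsub β hβ)).norm).pow 2)
        simpa [add_mul, add_assoc] using this)
    simpa [add_mul, add_assoc] using this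
  rw [e4] at hs
  have e5 : (n : ℝ) ^ 2 * h ^ 3 * en B s0 t0 (n * h) =
      (n : ℝ)⁻¹ * ∫ t in t0..(t0 + n * h), ‖B (s0 + n * h) t - B s0 t‖ ^ 2 := by
    unfold en; field_simp
  rw [e5]
  simp only [sum_const, card_range, nsmul_eq_mul] at hs
  linarith

end Vale.Agent.P208
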