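import Vale.Agent.P208.Strip

namespace Vale.Agent.P208

open Finset

variable {E : Type*} [NormedAddCommGroup E] [InnerProductSpace ℝ E]

/-- a square of side `Z * K * h` cut into `Z` strips, with a coloured map on each strip -/
structure Strip (B : ℝ → ℝ → E) (C : ℕ → ℝ → ℝ → E) (s0 t0 h L ρ : ℝ) (Z K : ℕ) : Prop where
  hZ : 0 < Z
  hK : 0 < K
  hh : 0 < h
  hL : 0 ≤ L
  lipB : ∀ s ∈ Set.Icc s0 (s0 + (Z * K : ℕ) * h), ∀ s' ∈ Set.Icc s0 (s0 + (Z * K : ℕ) * h),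
    ∀ t ∈ Set.Icc t0 (t0 + (Z * K : ℕ) * h), ∀ t' ∈ Set.Icc t0 (t0 + (Z * K : ℕ) * h),
      ‖B s t - B s' t'‖ ≤ L * (|s - s'| + |t - t'|)
  lipC : ∀ q < Z, ∀ s ∈ Set.Icc s0 (s0 + (Z * K : ℕ) * h), ∀ s' ∈ Set.Icc s0 (s0 + (Z * K : ℕ) * h),
    ∀ t ∈ Set.Icc (t0 + q * (K * h)) (t0 + (q + 1) * (K * h)),
    ∀ t' ∈ Set.Icc (t0 + q * (K * h)) (t0 + (q + 1) * (K * h)),
      ‖C q s t - C q s' t'‖ ≤ L * (|s - s'| + |t - t'|)
  near : ∀ q < Z, ∀ s ∈ Set.Icc s0 (s0 + (Z * K : ℕ) * h),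
    ∀ t ∈ Set.Icc (t0 + q * (K * h)) (t0 + (q + 1) * (K * h)), ‖C q s t - B s t‖ ≤ ρ

theorem fine_sub (a h : ℝ) (hh : 0 < h) (n α : ℕ) (hα : α < n) :
    Set.Icc (a + α * h) (a + α * h + h) ⊆ Set.Icc a (a + n * h) := by
  have h1 : (α : ℝ) + 1 ≤ n := by exact_mod_cast hα
  have h2 : (0 : ℝ) ≤ α := Nat.cast_nonneg α
  apply Set.Icc_subset_Icc <;> nlinarith

theorem fine_strip (a h : ℝ) (hh : 0 < h) (K β : ℕ) (hK : 0 < K) :
    Set.Icc (a + β * h) (a + β * h + h) ⊆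
      Set.Icc (a + (β / K : ℕ) * (K * h)) (a + ((β / K : ℕ) + 1) * (K * h)) := by
  have h1 : β / K * K ≤ β := Nat.div_mul_le_self β K
  have h2 : β + 1 ≤ (β / K + 1) * K := by
    have := Nat.lt_div_mul_add (a := β) hK
    nlinarith
  have h1' : ((β / K : ℕ) : ℝ) * K ≤ β := by exact_mod_cast h1
  have h2' : (β : ℝ) + 1 ≤ (((β / K : ℕ) : ℝ) + 1) * K := by exact_mod_cast h2
  apply Set.Icc_subset_Icc <;> nlinarith

theorem div_lt_Z {Z K β : ℕ} (hK : 0 < K) (hβ : β < Z * K) : β / K < Z :=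
  (Nat.div_lt_iff_lt_mul hK).2 hβ

theorem left_mem (a u : ℝ) (hu : 0 ≤ u) : a ∈ Set.Icc a (a + u) := ⟨le_rfl, by linarith⟩
theorem right_mem (a u : ℝ) (hu : 0 ≤ u) : a + u ∈ Set.Icc a (a + u) := ⟨by linarith, le_rfl⟩

theorem cont2 (G : ℝ → ℝ → E) (L : ℝ) (s s' a b : ℝ) (I : Set ℝ) (hs : s ∈ I) (hs' : s' ∈ I)
    (h : ∀ s ∈ I, ∀ t ∈ Set.Icc a b, ∀ t' ∈ Set.Icc a b, ‖G s t - G s t'‖ ≤ L * |t - t'|) :
    ContinuousOn (fun t => G s t - G s' t) (Set.Icc a b) :=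
  (cont_of_lip _ a b L (h s hs)).sub (cont_of_lip _ a b L (h s' hs'))

variable {B : ℝ → ℝ → E} {C : ℕ → ℝ → ℝ → E} {s0 t0 h L ρ : ℝ} {Z K : ℕ}

theorem Strip.u_pos (S : Strip B C s0 t0 h L ρ Z K) : (0 : ℝ) < (Z * K : ℕ) * h := by
  have : (0 : ℝ) < (Z * K : ℕ) := by exact_mod_cast Nat.mul_pos S.hZ S.hK
  exact mul_pos this S.hh

theorem Strip.contB (S : Strip B C s0 t0 h L ρ Z K) :
    ContinuousOn (fun t => B (s0 + (Z * K : ℕ) * h) t - B s0 t)
      (Set.Icc t0 (t0 + (Z * K : ℕ) * h)) :=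
  cont2 B L _ _ _ _ _ (right_mem _ _ S.u_pos.le) (left_mem _ _ S.u_pos.le)
    (fun s hs t ht t' ht' => by simpa using S.lipB s hs s hs t ht t' ht')

theorem Strip.contC (S : Strip B C s0 t0 h L ρ Z K) (α β : ℕ) (hα : α < Z * K) (hβ : β < Z * K) :
    ContinuousOn (fun t => C (β / K) (s0 + α * h + h) t - C (β / K) (s0 + α * h) t)
      (Set.Icc (t0 + β * h) (t0 + β * h + h)) :=
  cont2 (C (β / K)) L _ _ _ _ _ (fine_sub s0 h S.hh _ α hα (right_mem _ _ S.hh.le))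
    (fine_sub s0 h S.hh _ α hα (left_mem _ _ S.hh.le))
    (fun s hs t ht t' ht' => by
      simpa using S.lipC _ (div_lt_Z S.hK hβ) s hs s hs t (fine_strip t0 h S.hh K β S.hK ht) t'
        (fine_strip t0 h S.hh K β S.hK ht'))

theorem Strip.long (S : Strip B C s0 t0 h L ρ Z K) :
    ∑ β ∈ range (Z * K), ∑ α ∈ range (Z * K),
        dv (C (β / K)) B s0 ((Z * K : ℕ) * h) h (s0 + α * h) (t0 + β * h) +
        ((Z * K : ℕ) : ℝ) ^ 2 * h ^ 3 * en B s0 t0 ((Z * K : ℕ) * h) -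
          2 * h * (2 * ρ) * L * ((Z * K : ℕ) * h) ≤
      h ^ 3 * ∑ β ∈ range (Z * K), ∑ α ∈ range (Z * K),
        en (C (β / K)) (s0 + α * h) (t0 + β * h) h := by
  have hu := S.u_pos
  refine sum_en B (fun _ β => C (β / K)) s0 t0 h L (2 * ρ) (Z * K) (Nat.mul_pos S.hZ S.hK) S.hh
    (fun α hα β hβ => S.contC α β hα hβ) S.contB (fun t ht => ?_) (fun β hβ t ht => ?_)
  · have := S.lipB _ (right_mem _ _ hu.le) _ (left_mem _ _ hu.le) t ht t ht
    simpa [abs_of_pos S.hh] using this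
  · have e : ∑ α ∈ range (Z * K), (C (β / K) (s0 + α * h + h) t - C (β / K) (s0 + α * h) t) =
        C (β / K) (s0 + (Z * K : ℕ) * h) t - C (β / K) s0 t := by
      have := Finset.sum_range_sub (fun α : ℕ => C (β / K) (s0 + α * h) t) (Z * K)
      simpa [add_mul, add_assoc] using this
    rw [e]
    have ht' := fine_strip t0 h S.hh K β S.hK ht
    have h1 := S.near _ (div_lt_Z S.hK hβ) _ (right_mem _ _ hu.le) t ht'
    have h2 := S.near _ (div_lt_Z S.hK hβ) _ (left_mem _ _ hu.le) t ht'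
    calc _ = ‖(C (β / K) (s0 + (Z * K : ℕ) * h) t - B (s0 + (Z * K : ℕ) * h) t) -
          (C (β / K) s0 t - B s0 t)‖ := by congr 1; abel
      _ ≤ _ := (norm_sub_le _ _).trans (by linarith)

theorem sum_range_mulE (f : ℕ → E) (a b : ℕ) :
    ∑ i ∈ range (a * b), f i = ∑ p ∈ range a, ∑ q ∈ range b, f (p * b + q) := by
  induction a with
  | zero => simp
  | succ a ih => rw [Nat.succ_mul, sum_range_add, ih, sum_range_succ]

theorem Strip.short (S : Strip B C s0 t0 h L ρ Z K) :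
    ((Z * K : ℕ) : ℝ) ^ 2 * h ^ 3 * en (fun t s => B s t) t0 s0 ((Z * K : ℕ) * h) -
          2 * h * (Z * (2 * ρ)) * L * ((Z * K : ℕ) * h) ≤
      h ^ 3 * ∑ α ∈ range (Z * K), ∑ β ∈ range (Z * K),
        en (fun t s => C (β / K) s t) (t0 + β * h) (s0 + α * h) h := by
  have hu := S.u_pos
  have hh := S.hh
  have := sum_en (fun t s => B s t) (fun β _ t s => C (β / K) s t) t0 s0 h L (Z * (2 * ρ)) (Z * K)
    (Nat.mul_pos S.hZ S.hK) S.hh (fun β hβ α hα => ?_) ?_ (fun s hs => ?_) (fun α hα s hs => ?_)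
  · have h0 : 0 ≤ ∑ α ∈ range (Z * K), ∑ β ∈ range (Z * K),
        dv (fun t s => C (β / K) s t) (fun t s => B s t) t0 ((Z * K : ℕ) * h) h (t0 + β * h)
          (s0 + α * h) :=
      sum_nonneg fun _ _ => sum_nonneg fun _ _ => dv_nonneg _ _ _ _ _ _ _ hh.le
    linarith
  · exact cont2 (fun t s => C (β / K) s t) L _ _ _ _ _
      (fine_strip t0 h hh K β S.hK (right_mem _ _ hh.le))
      (fine_strip t0 h hh K β S.hK (left_mem _ _ hh.le))
      (fun t ht s hs s' hs' => by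
        simpa using S.lipC _ (div_lt_Z S.hK hβ) s (fine_sub s0 h hh _ α hα hs) s'
          (fine_sub s0 h hh _ α hα hs') t ht t ht)
  · exact cont2 (fun t s => B s t) L _ _ _ _ _ (right_mem _ _ hu.le) (left_mem _ _ hu.le)
      (fun t ht s hs s' hs' => by simpa using S.lipB s hs s' hs' t ht t ht)
  · have := S.lipB s hs s hs _ (right_mem _ _ hu.le) _ (left_mem _ _ hu.le)
    simpa [abs_of_pos S.hh] using this
  · have hs' := fine_sub s0 h hh _ α hα hs
    have hK : (0 : ℝ) < K := by exact_mod_cast S.hK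
    have e : ∑ β ∈ range (Z * K), (C (β / K) s (t0 + β * h + h) - C (β / K) s (t0 + β * h)) =
        ∑ q ∈ range Z, (C q s (t0 + (q + 1) * (K * h)) - C q s (t0 + q * (K * h))) := by
      rw [sum_range_mulE]
      refine sum_congr rfl fun q _ => ?_
      have h1 : ∀ b ∈ range K, C ((q * K + b) / K) s (t0 + (q * K + b : ℕ) * h + h) -
          C ((q * K + b) / K) s (t0 + (q * K + b : ℕ) * h) =
          C q s (t0 + q * (K * h) + (b + 1 : ℕ) * h) - C q s (t0 + q * (K * h) + b * h) := by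
        intro b hb
        have : (q * K + b) / K = q := by
          rw [Nat.add_comm, Nat.add_mul_div_right _ _ S.hK, Nat.div_eq_of_lt (mem_range.1 hb)]
          simp
        rw [this]
        congr 2 <;> push_cast <;> ring
      rw [sum_congr rfl h1, Finset.sum_range_sub (fun b : ℕ => C q s (t0 + q * (K * h) + b * h)) K]
      congr 2
      · ring
      · simp
    have e2 : B s (t0 + (Z * K : ℕ) * h) - B s t0 =
        ∑ q ∈ range Z, (B s (t0 + (q + 1) * (K * h)) - B s (t0 + q * (K * h))) := by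
      have := Finset.sum_range_sub (fun q : ℕ => B s (t0 + q * (K * h))) Z
      simp only [Nat.cast_add, Nat.cast_one] at this
      rw [this]
      congr 2
      · push_cast; ring
      · simp
    rw [e, e2, ← sum_sub_distrib]
    refine (norm_sum_le _ _).trans ?_
    have : ∀ q ∈ range Z, ‖C q s (t0 + (q + 1) * (K * h)) - C q s (t0 + q * (K * h)) -
        (B s (t0 + (q + 1) * (K * h)) - B s (t0 + q * (K * h)))‖ ≤ 2 * ρ := by
      intro q hq
      have hp : 0 < K * h := mul_pos hK hh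
      have h1 := S.near q (mem_range.1 hq) s hs' (t0 + (q + 1) * (K * h)) ⟨by nlinarith, le_rfl⟩
      have h2 := S.near q (mem_range.1 hq) s hs' (t0 + q * (K * h)) ⟨le_rfl, by nlinarith⟩
      calc _ = ‖(C q s (t0 + (q + 1) * (K * h)) - B s (t0 + (q + 1) * (K * h))) -
          (C q s (t0 + q * (K * h)) - B s (t0 + q * (K * h)))‖ := by congr 1; abel
        _ ≤ _ := (norm_sub_le _ _).trans (by linarith)
    refine (sum_le_sum this).trans ?_
    simp

end Vale.Agent.P208
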