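import Vale.Agent.P208.Strip2

namespace Vale.Agent.P208

open Finset

variable {E : Type*} [NormedAddCommGroup E] [InnerProductSpace ℝ E]
variable {B : ℝ → ℝ → E} {C : ℕ → ℝ → ℝ → E} {s0 t0 h L ρ : ℝ} {Z K : ℕ}

theorem exists_le_of_int (g : ℝ → ℝ) (a h Q : ℝ) (hh : 0 < h)
    (hg : ContinuousOn g (Set.Icc a (a + h))) (hi : (∫ t in a..a + h, g t) ≤ h * Q) :
    ∃ t ∈ Set.Icc a (a + h), g t ≤ Q := by
  obtain ⟨t, ht, hmin⟩ := isCompact_Icc.exists_isMinOn ⟨a, left_mem a h hh.le⟩ hg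
  refine ⟨t, ht, ?_⟩
  have h1 : (∫ _ in a..a + h, g t) ≤ ∫ τ in a..a + h, g τ :=
    intervalIntegral.integral_mono_on (by linarith) (by simp) (ii_of_cont _ _ _ hh.le hg)
      (fun τ hτ => hmin hτ)
  rw [intervalIntegral.integral_const] at h1
  simp only [add_sub_cancel_left, smul_eq_mul] at h1
  exact le_of_mul_le_mul_left (h1.trans hi) hh

theorem Strip.sl_lip (S : Strip B C s0 t0 h L ρ Z K) (t t' : ℝ)
    (ht : t ∈ Set.Icc t0 (t0 + (Z * K : ℕ) * h)) (ht' : t' ∈ Set.Icc t0 (t0 + (Z * K : ℕ) * h)) :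
    ‖sl B s0 ((Z * K : ℕ) * h) t - sl B s0 ((Z * K : ℕ) * h) t'‖ ≤
      2 * L * |t - t'| / ((Z * K : ℕ) * h) := by
  have hu := S.u_pos
  have h1 := S.lipB _ (right_mem _ _ hu.le) _ (right_mem _ _ hu.le) t ht t' ht'
  have h2 := S.lipB _ (left_mem _ _ hu.le) _ (left_mem _ _ hu.le) t ht t' ht'
  simp only [sub_self, abs_zero, zero_add] at h1 h2
  rw [sl, sl, ← smul_sub, norm_smul, Real.norm_eq_abs, abs_of_pos (inv_pos.2 hu),
    div_eq_inv_mul]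
  refine mul_le_mul_of_nonneg_left ?_ (inv_pos.2 hu).le
  calc _ = ‖(B (s0 + (Z * K : ℕ) * h) t - B (s0 + (Z * K : ℕ) * h) t') - (B s0 t - B s0 t')‖ := by
        congr 1; abel
    _ ≤ _ := (norm_sub_le _ _).trans (by linarith)

theorem Strip.select (S : Strip B C s0 t0 h L ρ Z K) (q α0 Ks : ℕ) (hq : q < Z)
    (hα : α0 + Ks ≤ Z * K) (Q Bd W tr : ℝ) (hBd : 0 ≤ Bd) (hQ : (Ks : ℝ) * Q ≤ Bd ^ 2)
    (htr : tr ∈ Set.Icc t0 (t0 + (Z * K : ℕ) * h))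
    (hW : ∀ t ∈ Set.Icc (t0 + q * (K * h)) (t0 + (q + 1) * (K * h)), |t - tr| ≤ W)
    (hsum : ∑ b ∈ range K, ∑ α ∈ range Ks,
      dv (C ((q * K + b) / K)) B s0 ((Z * K : ℕ) * h) h (s0 + (α0 + α : ℕ) * h)
        (t0 + (q * K + b : ℕ) * h) ≤ K * (h * Q)) :
    ∃ b < K, ∀ α₁ ≤ Ks, ∀ α₂ ≤ Ks,
      ‖C q (s0 + (α0 + α₂ : ℕ) * h) (t0 + (q * K + b : ℕ) * h) -
        C q (s0 + (α0 + α₁ : ℕ) * h) (t0 + (q * K + b : ℕ) * h) -
        (((α₂ : ℝ) - α₁) * h) • sl B s0 ((Z * K : ℕ) * h) tr‖ ≤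
      2 * Bd + 2 * L * h + Ks * h * (2 * L * W / ((Z * K : ℕ) * h)) := by
  have hu := S.u_pos
  have hh := S.hh
  have hL := S.hL
  obtain ⟨b, hb, hle⟩ := exists_le_of_sum_le (s := range K) ⟨0, mem_range.2 S.hK⟩
    (g := fun _ => h * Q) (hsum.trans (by simp))
  have hb' := mem_range.1 hb
  have hdiv : (q * K + b) / K = q := by
    rw [Nat.add_comm, Nat.add_mul_div_right _ _ S.hK, Nat.div_eq_of_lt hb']
    simp
  have hβ : q * K + b < Z * K := by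
    have : (q + 1) * K ≤ Z * K := Nat.mul_le_mul_right _ hq
    nlinarith
  set β := q * K + b with hβdef
  have hσc : ContinuousOn (fun t => sl B s0 ((Z * K : ℕ) * h) t)
      (Set.Icc (t0 + β * h) (t0 + β * h + h)) :=
    (S.contB.const_smul _).mono (fine_sub t0 h hh _ β hβ)
  have hc : ∀ α ∈ range Ks, ContinuousOn (fun t => ‖C (β / K) (s0 + (α0 + α : ℕ) * h + h) t -
      C (β / K) (s0 + (α0 + α : ℕ) * h) t - h • sl B s0 ((Z * K : ℕ) * h) t‖ ^ 2)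
      (Set.Icc (t0 + β * h) (t0 + β * h + h)) := fun α hα' =>
    (((S.contC (α0 + α) β (by have := mem_range.1 hα'; omega) hβ).sub
      (hσc.const_smul h)).norm).pow 2
  simp only [dv] at hle
  rw [← intervalIntegral.integral_finsetSum (fun α hα' => ii_of_cont _ _ _ hh.le (hc α hα'))] at hle
  obtain ⟨t, ht, htQ⟩ := exists_le_of_int _ _ h Q hh (continuousOn_finsetSum _ hc) hle
  refine ⟨b, hb', fun α₁ h1 α₂ h2 => ?_⟩
  rw [hdiv] at htQ
  have hdev := dev_line (fun α => C q (s0 + (α0 + α : ℕ) * h) t) Ks h Q Bd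
    (sl B s0 ((Z * K : ℕ) * h) t) (by
      refine le_of_eq_of_le (sum_congr rfl fun α _ => ?_) htQ
      congr 5
      push_cast; ring) hBd hQ α₁ α₂ h1 h2
  have hts := fine_strip t0 h hh K β S.hK ht
  have hgs := fine_strip t0 h hh K β S.hK (left_mem _ _ hh.le)
  rw [hdiv] at hts hgs
  have hmem : ∀ α ≤ Ks, s0 + (α0 + α : ℕ) * h ∈ Set.Icc s0 (s0 + (Z * K : ℕ) * h) := by
    intro α hα'
    have h3 : ((α0 + α : ℕ) : ℝ) ≤ (Z * K : ℕ) := by exact_mod_cast (by omega : α0 + α ≤ Z * K)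
    have h4 : (0 : ℝ) ≤ (α0 + α : ℕ) := Nat.cast_nonneg _
    constructor <;> nlinarith
  have habs : |t0 + β * h - t| ≤ h := by
    rw [abs_le]; constructor <;> linarith [ht.1, ht.2]
  have hm : ∀ α ≤ Ks, ‖C q (s0 + (α0 + α : ℕ) * h) (t0 + β * h) -
      C q (s0 + (α0 + α : ℕ) * h) t‖ ≤ L * h := by
    intro α hα'
    have := S.lipC q hq _ (hmem α hα') _ (hmem α hα') _ hgs _ hts
    simp only [sub_self, abs_zero, zero_add] at this
    exact this.trans (mul_le_mul_of_nonneg_left habs hL)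
  have hsl := S.sl_lip t tr (fine_sub t0 h hh _ β hβ ht) htr
  have hsl' : ‖sl B s0 ((Z * K : ℕ) * h) t - sl B s0 ((Z * K : ℕ) * h) tr‖ ≤
      2 * L * W / ((Z * K : ℕ) * h) :=
    hsl.trans (div_le_div_of_nonneg_right
      (mul_le_mul_of_nonneg_left (hW t hts) (by positivity)) hu.le)
  have hcoef : |((α₂ : ℝ) - α₁) * h| ≤ Ks * h := by
    have h3 : (α₁ : ℝ) ≤ Ks := by exact_mod_cast h1
    have h4 : (α₂ : ℝ) ≤ Ks := by exact_mod_cast h2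
    have h5 : (0 : ℝ) ≤ α₁ := Nat.cast_nonneg _
    have h6 : (0 : ℝ) ≤ α₂ := Nat.cast_nonneg _
    rw [abs_le]; constructor <;> nlinarith
  have hlast : ‖(((α₂ : ℝ) - α₁) * h) • (sl B s0 ((Z * K : ℕ) * h) t -
      sl B s0 ((Z * K : ℕ) * h) tr)‖ ≤ Ks * h * (2 * L * W / ((Z * K : ℕ) * h)) := by
    rw [norm_smul, Real.norm_eq_abs]
    exact mul_le_mul hcoef hsl' (norm_nonneg _) (by positivity)
  calc _ = ‖(C q (s0 + (α0 + α₂ : ℕ) * h) t - C q (s0 + (α0 + α₁ : ℕ) * h) t -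
        (((α₂ : ℝ) - α₁) * h) • sl B s0 ((Z * K : ℕ) * h) t) +
        (C q (s0 + (α0 + α₂ : ℕ) * h) (t0 + β * h) - C q (s0 + (α0 + α₂ : ℕ) * h) t) -
        (C q (s0 + (α0 + α₁ : ℕ) * h) (t0 + β * h) - C q (s0 + (α0 + α₁ : ℕ) * h) t) +
        (((α₂ : ℝ) - α₁) * h) • (sl B s0 ((Z * K : ℕ) * h) t -
          sl B s0 ((Z * K : ℕ) * h) tr)‖ := by
        congr 1; rw [smul_sub]; abel
    _ ≤ _ := by
        refine (norm_add_le _ _).trans ?_
        refine (add_le_add ((norm_sub_le _ _).trans (add_le_add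
          ((norm_add_le _ _).trans (add_le_add hdev (hm α₂ h2))) (hm α₁ h1))) hlast).trans ?_
        linarith

theorem block_select (f : ℕ → ℕ → ℝ) (A1 B1 A2 B2 : ℕ) (h1 : 0 < A1) (h2 : 0 < A2) (X : ℝ)
    (hs : ∑ β ∈ range (A1 * B1), ∑ α ∈ range (A2 * B2), f α β ≤ A1 * (A2 * X)) :
    ∃ Q < A1, ∃ P < A2, ∑ β ∈ range B1, ∑ α ∈ range B2, f (P * B2 + α) (Q * B1 + β) ≤ X := by
  rw [sum_range_mul'] at hs
  obtain ⟨Q, hQ, hle⟩ := exists_le_of_sum_le (s := range A1) ⟨0, mem_range.2 h1⟩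
    (g := fun _ => A2 * X) (hs.trans (by simp))
  simp only [sum_range_mul' _ A2 B2] at hle
  rw [sum_comm] at hle
  obtain ⟨P, hP, hle'⟩ := exists_le_of_sum_le (s := range A2) ⟨0, mem_range.2 h2⟩
    (g := fun _ => X) (hle.trans (by simp))
  exact ⟨Q, mem_range.1 hQ, P, mem_range.1 hP, hle'⟩

theorem part_le (g : ℕ → ℝ) (hg : ∀ b, 0 ≤ g b) (M K i : ℕ) (hi : i < M) :
    ∑ b ∈ range K, g (i * K + b) ≤ ∑ β ∈ range (M * K), g β := by
  rw [sum_range_mul']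
  exact single_le_sum (f := fun p => ∑ b ∈ range K, g (p * K + b))
    (fun p _ => sum_nonneg fun b _ => hg _) (mem_range.2 hi)

end Vale.Agent.P208
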